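import Vale.Agent.P091.H74.Spec
import Vale.Agent.P091.H413.Tree

/-!
# P091, T block, row BRIDGE: integer model (Spec) = list tree (Lemma E)

Nodes of the list tree: `Node = List Bool`; `true :: v` is the left child `(j+1, 2a)`,
`false :: v` the right child `(j+1, 2a+1)` of `v = (j, a)`, `j = v.length`, `a = ix v`.
-/

open Finset

namespace Vale.Agent.P091.T.H350

open Vale.Agent.P091.Spec Vale.Agent.P091.H413

/-! ## index of a node -/

/-- the index of a node in its level -/
def ix : Node → ℕ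
  | [] => 0
  | true :: v => 2 * ix v
  | false :: v => 2 * ix v + 1

@[simp] theorem ix_nil : ix [] = 0 := rfl
@[simp] theorem ix_true (v : Node) : ix (true :: v) = 2 * ix v := rfl
@[simp] theorem ix_false (v : Node) : ix (false :: v) = 2 * ix v + 1 := rfl

theorem ix_lt (v : Node) : ix v < 2 ^ v.length := by
  induction v with
  | nil => simp
  | cons b v ih =>
    rw [List.length_cons, pow_succ]
    cases b
    · rw [ix_false]; omega
    · rw [ix_true]; omega

theorem ix_div_two (b : Bool) (v : Node) : ix (b :: v) / 2 = ix v := by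
  cases b
  · rw [ix_false]; omega
  · rw [ix_true]; omega

/-- the index of an ancestor -/
theorem ix_append (w u : Node) : ix (w ++ u) / 2 ^ w.length = ix u := by
  induction w with
  | nil => simp
  | cons b w ih =>
    rw [List.cons_append, List.length_cons, pow_succ', ← Nat.div_div_eq_div_mul, ix_div_two, ih]

theorem ix_drop (v : Node) {m : ℕ} (hm : m ≤ v.length) : ix (v.drop m) = ix v / 2 ^ m := by
  have h := ix_append (v.take m) (v.drop m)
  rw [List.take_append_drop, List.length_take, min_eq_left hm] at h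
  exact h.symm

/-- the node with given level and index -/
def nodeOf : ℕ → ℕ → Node
  | 0, _ => []
  | j + 1, a => (decide (a % 2 = 0)) :: nodeOf j (a / 2)

@[simp] theorem length_nodeOf (j a : ℕ) : (nodeOf j a).length = j := by
  induction j generalizing a with
  | zero => rfl
  | succ j ih => simp [nodeOf, ih]

theorem ix_nodeOf {j a : ℕ} (h : a < 2 ^ j) : ix (nodeOf j a) = a := by
  induction j generalizing a with
  | zero =>
    rw [pow_zero] at h
    have : a = 0 := by omega
    rw [this]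
    rfl
  | succ j ih =>
    have h2 : a / 2 < 2 ^ j := by rw [pow_succ] at h; omega
    have h3 := ih h2
    unfold nodeOf
    by_cases ha : a % 2 = 0
    · rw [decide_eq_true ha, ix_true, h3]; omega
    · rw [decide_eq_false ha, ix_false, h3]; omega

theorem nodeOf_ix (v : Node) : nodeOf v.length (ix v) = v := by
  induction v with
  | nil => rfl
  | cons b v ih =>
    rw [List.length_cons]
    unfold nodeOf
    rw [ix_div_two, ih]
    cases b
    · rw [ix_false, decide_eq_false (by omega)]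
    · rw [ix_true, decide_eq_true (by omega)]

theorem node_ext {v w : Node} (h : v.length = w.length) (h2 : ix v = ix w) : v = w := by
  rw [← nodeOf_ix v, ← nodeOf_ix w, h, h2]

/-! ## the integer intervals -/

theorem mem_nd {n j a i : ℕ} : i ∈ nd n j a ↔ anc n j i = a := by
  unfold nd anc
  rw [mem_Ico]
  have hp : 0 < 2 ^ (n - j) := by positivity
  constructor
  · rintro ⟨h1, h2⟩
    exact le_antisymm (Nat.lt_succ_iff.1 ((Nat.div_lt_iff_lt_mul hp).2 h2))
      ((Nat.le_div_iff_mul_le hp).2 h1)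
  · rintro rfl
    refine ⟨Nat.div_mul_le_self _ _, ?_⟩
    rw [mul_comm]
    exact Nat.lt_mul_div_succ i hp

theorem nd_split {n j : ℕ} (hj : j < n) (a : ℕ) :
    nd n j a = nd n (j + 1) (2 * a) ∪ nd n (j + 1) (2 * a + 1) := by
  ext i
  rw [mem_union, mem_nd, mem_nd, mem_nd]
  have e : n - j = (n - (j + 1)) + 1 := by omega
  have h : anc n j i = anc n (j + 1) i / 2 := by
    unfold anc
    rw [e, pow_succ, Nat.div_div_eq_div_mul]
  rw [h]
  omega

theorem nd_disj (n j a : ℕ) : Disjoint (nd n j (2 * a)) (nd n j (2 * a + 1)) := by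
  rw [Finset.disjoint_left]
  intro i h1 h2
  rw [mem_nd] at h1 h2
  omega

theorem nd_card (n j a : ℕ) : (nd n j a).card = 2 ^ (n - j) := by
  unfold nd
  rw [Nat.card_Ico, add_mul, one_mul, Nat.add_sub_cancel_left]

theorem sum_nd {M : Type*} [AddCommMonoid M] {n j : ℕ} (hj : j < n) (a : ℕ) (F : ℕ → M) :
    ∑ i ∈ nd n j a, F i = ∑ i ∈ nd n (j + 1) (2 * a), F i + ∑ i ∈ nd n (j + 1) (2 * a + 1), F i := by
  rw [nd_split hj, sum_union (nd_disj _ _ _)]

theorem av_mart {n j : ℕ} (hj : j < n) (a : ℕ) (F : ℕ → ℝ) :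
    av n j a F = (av n (j + 1) (2 * a) F + av n (j + 1) (2 * a + 1) F) / 2 := by
  unfold av
  have e : n - j = (n - (j + 1)) + 1 := by omega
  rw [sum_nd hj, e, pow_succ]
  field_simp

theorem avC_mart {n j : ℕ} (hj : j < n) (a : ℕ) (F : ℕ → ℂ) :
    avC n j a F = (avC n (j + 1) (2 * a) F + avC n (j + 1) (2 * a + 1) F) / 2 := by
  unfold avC
  have e : n - j = (n - (j + 1)) + 1 := by omega
  rw [sum_nd hj, e, pow_succ]
  field_simp

theorem av_nonneg {n j a : ℕ} {F : ℕ → ℝ} (h : ∀ i, 0 ≤ F i) : 0 ≤ av n j a F := by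
  unfold av
  exact div_nonneg (sum_nonneg fun i _ => h i) (by positivity)

theorem av_mono {n j a : ℕ} {F G : ℕ → ℝ} (h : ∀ i ∈ nd n j a, F i ≤ G i) :
    av n j a F ≤ av n j a G := by
  unfold av
  gcongr with i hi
  exact h i hi

theorem norm_avC_le {n j a : ℕ} {F : ℕ → ℂ} {G : ℕ → ℝ} (h : ∀ i ∈ nd n j a, ‖F i‖ ≤ G i) :
    ‖avC n j a F‖ ≤ av n j a G := by
  unfold av avC
  rw [norm_div, norm_pow, Complex.norm_two]
  gcongr
  exact (norm_sum_le _ _).trans (sum_le_sum h)

theorem av_const (n j a : ℕ) (c : ℝ) : av n j a (fun _ => c) = c := by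
  unfold av
  rw [sum_const, nd_card, nsmul_eq_mul]
  push_cast
  field_simp

theorem av_le_const {n j a : ℕ} {F : ℕ → ℝ} {c : ℝ} (h : ∀ i ∈ nd n j a, F i ≤ c) :
    av n j a F ≤ c := by
  rw [← av_const n j a c]
  exact av_mono h

theorem av_add (n j a : ℕ) (F G : ℕ → ℝ) :
    av n j a (fun i => F i + G i) = av n j a F + av n j a G := by
  unfold av
  rw [sum_add_distrib, add_div]

theorem avC_add (n j a : ℕ) (F G : ℕ → ℂ) :
    avC n j a (fun i => F i + G i) = avC n j a F + avC n j a G := by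
  unfold avC
  rw [sum_add_distrib, add_div]

theorem av_mul_left (n j a : ℕ) (c : ℝ) (F : ℕ → ℝ) :
    av n j a (fun i => c * F i) = c * av n j a F := by
  unfold av
  rw [← mul_sum, mul_div_assoc]

theorem avC_mul_left (n j a : ℕ) (c : ℂ) (F : ℕ → ℂ) :
    avC n j a (fun i => c * F i) = c * avC n j a F := by
  unfold avC
  rw [← mul_sum, mul_div_assoc]

theorem av_sum {ι : Type*} (s : Finset ι) (n j a : ℕ) (F : ι → ℕ → ℝ) :
    av n j a (fun i => ∑ k ∈ s, F k i) = ∑ k ∈ s, av n j a (F k) := by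
  unfold av
  rw [sum_comm, sum_div]

theorem avC_sum {ι : Type*} (s : Finset ι) (n j a : ℕ) (F : ι → ℕ → ℂ) :
    avC n j a (fun i => ∑ k ∈ s, F k i) = ∑ k ∈ s, avC n j a (F k) := by
  unfold avC
  rw [sum_comm, sum_div]

theorem av_leaf (n a : ℕ) (F : ℕ → ℝ) : av n n a F = F a := by
  unfold av nd
  simp

theorem avC_leaf (n a : ℕ) (F : ℕ → ℂ) : avC n n a F = F a := by
  unfold avC nd
  simp

/-! ## averages over the nodes of the list tree -/

/-- average over the node `v` -/
noncomputable def AV (n : ℕ) (F : ℕ → ℝ) (v : Node) : ℝ := av n v.length (ix v) F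

/-- average over the node `v`, complex -/
noncomputable def AC (n : ℕ) (F : ℕ → ℂ) (v : Node) : ℂ := avC n v.length (ix v) F

/-- half difference over the two children -/
noncomputable def hd (X : Node → ℂ) (v : Node) : ℂ := (X (true :: v) - X (false :: v)) / 2

/-- `B_ξ` as a function on the list tree -/
noncomputable def BN (n : ℕ) (p : ℕ → ℝ) (ξ : ℝ) (v : Node) : ℂ := BB n p ξ v.length (ix v)

theorem AV_mart {n : ℕ} (F : ℕ → ℝ) {v : Node} (hv : v.length < n) :
    AV n F v = (AV n F (true :: v) + AV n F (false :: v)) / 2 := av_mart hv _ _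

theorem AC_mart {n : ℕ} (F : ℕ → ℂ) {v : Node} (hv : v.length < n) :
    AC n F v = (AC n F (true :: v) + AC n F (false :: v)) / 2 := avC_mart hv _ _

theorem BN_eq (n : ℕ) (p : ℕ → ℝ) (ξ : ℝ) (v : Node) :
    BN n p ξ v = AC n (fun i => (p i : ℂ) * e (-(ξ * i))) v := rfl

theorem BN_mart {n : ℕ} (p : ℕ → ℝ) (ξ : ℝ) {v : Node} (hv : v.length < n) :
    BN n p ξ v = (BN n p ξ (true :: v) + BN n p ξ (false :: v)) / 2 := avC_mart hv _ _

theorem dB_eq (n : ℕ) (p : ℕ → ℝ) (ξ : ℝ) (v : Node) :
    dB n p ξ v.length (ix v) = hd (BN n p ξ) v := rfl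

theorem norm_e (t : ℝ) : ‖e t‖ = 1 := by
  unfold e
  have h : 2 * (Real.pi : ℂ) * Complex.I * (t : ℂ) = ((2 * Real.pi * t : ℝ) : ℂ) * Complex.I := by
    push_cast
    ring
  rw [h, Complex.norm_exp_ofReal_mul_I]

theorem norm_BN_le {n : ℕ} {p : ℕ → ℝ} (hp : ∀ i, 0 ≤ p i) (ξ : ℝ) (v : Node) :
    ‖BN n p ξ v‖ ≤ AV n p v := by
  refine norm_avC_le fun i _ => ?_
  rw [norm_mul, norm_e, mul_one, Complex.norm_real, Real.norm_eq_abs, abs_of_nonneg (hp i)]

theorem norm_hd_le {X : Node → ℂ} {Y : Node → ℝ} {v : Node}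
    (h1 : ‖X (true :: v)‖ ≤ Y (true :: v)) (h2 : ‖X (false :: v)‖ ≤ Y (false :: v)) :
    ‖hd X v‖ ≤ (Y (true :: v) + Y (false :: v)) / 2 := by
  unfold hd
  rw [norm_div, Complex.norm_two]
  have := norm_sub_le (X (true :: v)) (X (false :: v))
  linarith

theorem norm_hd_BN_le {n : ℕ} {p : ℕ → ℝ} (hp : ∀ i, 0 ≤ p i) (ξ : ℝ) {v : Node}
    (hv : v.length < n) : ‖hd (BN n p ξ) v‖ ≤ AV n p v := by
  rw [AV_mart p hv]
  exact norm_hd_le (norm_BN_le hp _ _) (norm_BN_le hp _ _)

/-- linearity in `p` -/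
theorem BN_add (n : ℕ) (p p' : ℕ → ℝ) (ξ : ℝ) (v : Node) :
    BN n (fun i => p i + p' i) ξ v = BN n p ξ v + BN n p' ξ v := by
  rw [BN_eq, BN_eq, BN_eq]
  unfold AC
  rw [← avC_add]
  congr 1
  funext i
  push_cast
  ring

theorem BN_sum {ι : Type*} (s : Finset ι) (n : ℕ) (p : ι → ℕ → ℝ) (ξ : ℝ) (v : Node) :
    BN n (fun i => ∑ k ∈ s, p k i) ξ v = ∑ k ∈ s, BN n (p k) ξ v := by
  simp_rw [BN_eq]
  unfold AC
  rw [← avC_sum]
  congr 1
  funext i
  push_cast
  rw [sum_mul]

theorem hd_add (X Y : Node → ℂ) (v : Node) : hd (fun w => X w + Y w) v = hd X v + hd Y v := by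
  unfold hd
  ring

theorem hd_sum {ι : Type*} (s : Finset ι) (X : ι → Node → ℂ) (v : Node) :
    hd (fun w => ∑ k ∈ s, X k w) v = ∑ k ∈ s, hd (X k) v := by
  unfold hd
  rw [← sum_sub_distrib, sum_div]

/-! ## sums over the tree -/

/-- complex version of `S` -/
noncomputable def SC : ℕ → (Node → ℂ) → Node → ℂ
  | 0, _, _ => 0
  | n + 1, f, v => f v + (SC n f (true :: v) + SC n f (false :: v)) / 2

theorem SC_add (n : ℕ) (f g : Node → ℂ) (v : Node) :
    SC n (fun w => f w + g w) v = SC n f v + SC n g v := by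
  induction n generalizing v with
  | zero => simp [SC]
  | succ n ih => simp only [SC, ih]; ring

theorem SC_smul (n : ℕ) (c : ℂ) (f : Node → ℂ) (v : Node) :
    SC n (fun w => c * f w) v = c * SC n f v := by
  induction n generalizing v with
  | zero => simp [SC]
  | succ n ih => simp only [SC, ih]; ring

theorem SC_zero (n : ℕ) (v : Node) : SC n (fun _ => 0) v = 0 := by
  have := SC_smul n 0 (fun _ => 0) v
  simpa using this

theorem SC_sum {ι : Type*} (s : Finset ι) (n : ℕ) (f : ι → Node → ℂ) (v : Node) :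
    SC n (fun w => ∑ k ∈ s, f k w) v = ∑ k ∈ s, SC n (f k) v := by
  classical
  induction s using Finset.induction_on with
  | empty => simp [SC_zero]
  | insert a s ha ih =>
    simp only [sum_insert ha]
    rw [SC_add, ih]

theorem SC_congr (n : ℕ) {f g : Node → ℂ} (v : Node)
    (h : ∀ w : Node, w.length < n + v.length → f w = g w) : SC n f v = SC n g v := by
  induction n generalizing v with
  | zero => rfl
  | succ n ih =>
    simp only [SC]
    rw [h v (by omega), ih (true :: v) (fun w hw => h w (by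
      simp only [List.length_cons] at hw; omega)),
      ih (false :: v) (fun w hw => h w (by simp only [List.length_cons] at hw; omega))]

theorem norm_SC_le (n : ℕ) (f : Node → ℂ) (v : Node) :
    ‖SC n f v‖ ≤ S n (fun w => ‖f w‖) v := by
  induction n generalizing v with
  | zero => simp [SC, S]
  | succ n ih =>
    simp only [SC, S]
    refine (norm_add_le _ _).trans ?_
    rw [norm_div, Complex.norm_two]
    have h1 := ih (true :: v)
    have h2 := ih (false :: v)
    have h3 := norm_add_le (SC n f (true :: v)) (SC n f (false :: v))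
    linarith

/-- expected complex value at the node reached after `m` steps -/
noncomputable def LC : ℕ → (Node → ℂ) → Node → ℂ
  | 0, f, v => f v
  | n + 1, f, v => (LC n f (true :: v) + LC n f (false :: v)) / 2

theorem SC_split (m n : ℕ) (f : Node → ℂ) (v : Node) :
    SC (m + n) f v = SC m f v + LC m (fun w => SC n f w) v := by
  induction m generalizing v with
  | zero => simp [SC, LC]
  | succ m ih =>
    have e : m + 1 + n = (m + n) + 1 := by ring
    rw [e]
    simp only [SC, LC]
    rw [ih, ih]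
    ring

theorem S_split (m n : ℕ) (f : Node → ℝ) (v : Node) :
    S (m + n) f v = S m f v + Lf m (fun w => S n f w) v := by
  induction m generalizing v with
  | zero => simp [S, Lf]
  | succ m ih =>
    have e : m + 1 + n = (m + n) + 1 := by ring
    rw [e]
    simp only [S, Lf]
    rw [ih, ih]
    ring

/-- martingales: the average over a node is the expected value after `m` steps -/
theorem Lf_AV {n : ℕ} (F : ℕ → ℝ) (m : ℕ) {v : Node} (hv : v.length + m ≤ n) :
    Lf m (AV n F) v = AV n F v := by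
  induction m generalizing v with
  | zero => rfl
  | succ m ih =>
    simp only [Lf]
    rw [ih (v := true :: v) (by simp only [List.length_cons]; omega),
      ih (v := false :: v) (by simp only [List.length_cons]; omega), ← AV_mart F (by omega)]

theorem LC_AC {n : ℕ} (F : ℕ → ℂ) (m : ℕ) {v : Node} (hv : v.length + m ≤ n) :
    LC m (AC n F) v = AC n F v := by
  induction m generalizing v with
  | zero => rfl
  | succ m ih =>
    simp only [LC]
    rw [ih (v := true :: v) (by simp only [List.length_cons]; omega),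
      ih (v := false :: v) (by simp only [List.length_cons]; omega), ← AC_mart F (by omega)]

theorem sum_range_two_mul {M : Type*} [AddCommMonoid M] (N : ℕ) (F : ℕ → M) :
    ∑ a ∈ range (2 * N), F a = ∑ a ∈ range N, (F (2 * a) + F (2 * a + 1)) := by
  induction N with
  | zero => simp
  | succ N ih =>
    have e : 2 * (N + 1) = 2 * N + 1 + 1 := by ring
    rw [e, sum_range_succ, sum_range_succ, ih, sum_range_succ, add_assoc]

/-- a sum over the nodes of level `v.length + m` below `v` -/
theorem LC_eq (m : ℕ) (F : ℕ → ℕ → ℂ) (v : Node) :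
    LC m (fun w => F w.length (ix w)) v
      = (∑ c ∈ range (2 ^ m), F (v.length + m) (2 ^ m * ix v + c)) / 2 ^ m := by
  induction m generalizing v with
  | zero => simp [LC]
  | succ m ih =>
    have e1 : LC (m + 1) (fun w => F w.length (ix w)) v
        = (LC m (fun w => F w.length (ix w)) (true :: v)
            + LC m (fun w => F w.length (ix w)) (false :: v)) / 2 := rfl
    rw [e1, ih, ih, List.length_cons, List.length_cons, ix_true, ix_false]
    have e2 : (2 : ℕ) ^ (m + 1) = 2 ^ m + 2 ^ m := by rw [pow_succ]; ring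
    rw [e2, sum_range_add]
    have e3 : ∀ c, F (v.length + 1 + m) (2 ^ m * (2 * ix v) + c)
        = F (v.length + (m + 1)) ((2 ^ m + 2 ^ m) * ix v + c) := by
      intro c
      congr 1 <;> ring
    have e4 : ∀ c, F (v.length + 1 + m) (2 ^ m * (2 * ix v + 1) + c)
        = F (v.length + (m + 1)) ((2 ^ m + 2 ^ m) * ix v + (2 ^ m + c)) := by
      intro c
      congr 1 <;> ring
    simp_rw [e3, e4]
    rw [pow_succ]
    ring

theorem Lf_eq (m : ℕ) (F : ℕ → ℕ → ℝ) (v : Node) :
    Lf m (fun w => F w.length (ix w)) v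
      = (∑ c ∈ range (2 ^ m), F (v.length + m) (2 ^ m * ix v + c)) / 2 ^ m := by
  induction m generalizing v with
  | zero => simp [Lf]
  | succ m ih =>
    have e1 : Lf (m + 1) (fun w => F w.length (ix w)) v
        = (Lf m (fun w => F w.length (ix w)) (true :: v)
            + Lf m (fun w => F w.length (ix w)) (false :: v)) / 2 := rfl
    rw [e1, ih, ih, List.length_cons, List.length_cons, ix_true, ix_false]
    have e2 : (2 : ℕ) ^ (m + 1) = 2 ^ m + 2 ^ m := by rw [pow_succ]; ring
    rw [e2, sum_range_add]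
    have e3 : ∀ c, F (v.length + 1 + m) (2 ^ m * (2 * ix v) + c)
        = F (v.length + (m + 1)) ((2 ^ m + 2 ^ m) * ix v + c) := by
      intro c
      congr 1 <;> ring
    have e4 : ∀ c, F (v.length + 1 + m) (2 ^ m * (2 * ix v + 1) + c)
        = F (v.length + (m + 1)) ((2 ^ m + 2 ^ m) * ix v + (2 ^ m + c)) := by
      intro c
      congr 1 <;> ring
    simp_rw [e3, e4]
    rw [pow_succ]
    ring

/-- `SC` is a sum of levels -/
theorem SC_eq_sum (n : ℕ) (f : Node → ℂ) (v : Node) :
    SC n f v = ∑ i ∈ range n, LC i f v := by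
  induction n generalizing v with
  | zero => simp [SC]
  | succ n ih =>
    rw [sum_range_succ']
    simp only [SC, LC]
    rw [ih, ih, ← sum_add_distrib, sum_div, add_comm]

theorem S_eq_sum (n : ℕ) (f : Node → ℝ) (v : Node) :
    S n f v = ∑ i ∈ range n, Lf i f v := by
  induction n generalizing v with
  | zero => simp [S]
  | succ n ih =>
    rw [sum_range_succ']
    simp only [S, Lf]
    rw [ih, ih, ← sum_add_distrib, sum_div, add_comm]

/-- the root sum in the integer model, complex -/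
theorem SC_root (n : ℕ) (F : ℕ → ℕ → ℂ) :
    SC n (fun w => F w.length (ix w)) []
      = ∑ j ∈ range n, (∑ a ∈ range (2 ^ j), F j a) / 2 ^ j := by
  rw [SC_eq_sum]
  refine sum_congr rfl fun j _ => ?_
  rw [LC_eq]
  simp

/-- the root sum in the integer model -/
theorem S_root (n : ℕ) (F : ℕ → ℕ → ℝ) :
    S n (fun w => F w.length (ix w)) []
      = ∑ j ∈ range n, (∑ a ∈ range (2 ^ j), F j a) / 2 ^ j := by
  rw [S_eq_sum]
  refine sum_congr rfl fun j _ => ?_
  rw [Lf_eq]
  simp

/-! ## the gain -/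

/-- grouping the leaves by the nodes of a level -/
theorem sum_leaves {M : Type*} [AddCommMonoid M] {n j : ℕ} (hj : j ≤ n) (F : ℕ → M) :
    ∑ i ∈ range (2 ^ n), F i = ∑ a ∈ range (2 ^ j), ∑ i ∈ nd n j a, F i := by
  have hmap : ∀ i ∈ range (2 ^ n), anc n j i ∈ range (2 ^ j) := by
    intro i hi
    rw [mem_range] at hi ⊢
    unfold anc
    rw [Nat.div_lt_iff_lt_mul (by positivity), ← pow_add]
    have : j + (n - j) = n := by omega
    rwa [this]
  rw [← sum_fiberwise_of_maps_to hmap]
  refine sum_congr rfl fun a ha => ?_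
  refine sum_congr ?_ fun _ _ => rfl
  ext i
  rw [mem_filter, mem_nd, mem_range]
  constructor
  · exact fun h => h.2
  · intro h
    refine ⟨?_, h⟩
    rw [mem_range] at ha
    have h2 := mem_nd.2 h
    unfold nd at h2
    rw [mem_Ico] at h2
    have e : (2:ℕ) ^ n = 2 ^ j * 2 ^ (n - j) := by
      rw [← pow_add]
      congr 1
      omega
    rw [e]
    exact h2.2.trans_le (Nat.mul_le_mul_right _ ha)

theorem sg_eq {n j a c : ℕ} (hc : c < 4) {i : ℕ} (hi : i ∈ nd n (j + 2) (4 * a + c)) :
    sg n j i = if c = 0 ∨ c = 3 then 1 else -1 := by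
  rw [mem_nd] at hi
  unfold anc at hi
  unfold sg
  have e : n - j - 2 = n - (j + 2) := by omega
  rw [e, hi]
  have h : (4 * a + c) % 4 = c := by omega
  rw [h]

/-- the inner sum of the gain at one node -/
theorem node_term {n j : ℕ} (hj : j + 2 ≤ n) (a : ℕ) (A : ℕ → ℂ) :
    (∑ i ∈ nd n j a, A i * sg n j i) / 2 ^ (n - j)
      = ((avC n (j + 2) (4 * a) A - avC n (j + 2) (4 * a + 1) A) / 2
          - (avC n (j + 2) (4 * a + 2) A - avC n (j + 2) (4 * a + 3) A) / 2) / 2 := by
  have e1 : 2 * (2 * a) = 4 * a := by ring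
  have e2 : 2 * (2 * a) + 1 = 4 * a + 1 := by ring
  have e3 : 2 * (2 * a + 1) = 4 * a + 2 := by ring
  have e4 : 2 * (2 * a + 1) + 1 = 4 * a + 3 := by ring
  rw [sum_nd (by omega : j < n), sum_nd (by omega : j + 1 < n), sum_nd (by omega : j + 1 < n),
    e4, e3, e1]
  have s0 : ∑ i ∈ nd n (j + 1 + 1) (4 * a), A i * sg n j i
      = ∑ i ∈ nd n (j + 2) (4 * a), A i := by
    refine sum_congr rfl fun i hi => ?_
    rw [sg_eq (c := 0) (by norm_num) hi]
    simp
  have s1 : ∑ i ∈ nd n (j + 1 + 1) (4 * a + 1), A i * sg n j i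
      = -∑ i ∈ nd n (j + 2) (4 * a + 1), A i := by
    rw [← sum_neg_distrib]
    refine sum_congr rfl fun i hi => ?_
    rw [sg_eq (c := 1) (by norm_num) hi]
    simp
  have s2 : ∑ i ∈ nd n (j + 1 + 1) (4 * a + 2), A i * sg n j i
      = -∑ i ∈ nd n (j + 2) (4 * a + 2), A i := by
    rw [← sum_neg_distrib]
    refine sum_congr rfl fun i hi => ?_
    rw [sg_eq (c := 2) (by norm_num) hi]
    simp
  have s3 : ∑ i ∈ nd n (j + 1 + 1) (4 * a + 3), A i * sg n j i
      = ∑ i ∈ nd n (j + 2) (4 * a + 3), A i := by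
    refine sum_congr rfl fun i hi => ?_
    rw [sg_eq (c := 3) (by norm_num) hi]
    simp
  rw [s0, s1, s2, s3]
  unfold avC
  have e5 : (2:ℂ) ^ (n - j) = 4 * 2 ^ (n - (j + 2)) := by
    have : n - j = (n - (j + 2)) + 2 := by omega
    rw [this, pow_add]
    ring
  rw [e5]
  field_simp
  ring

/-- the same in the list tree: second difference of the averages of `A` -/
theorem node_term' {n : ℕ} {v : Node} (hv : v.length + 2 ≤ n) (A : ℕ → ℂ) :
    (∑ i ∈ nd n v.length (ix v), A i * sg n v.length i) / 2 ^ (n - v.length)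
      = hd (hd (AC n A)) v := by
  rw [node_term hv]
  unfold hd AC
  simp only [List.length_cons, ix_true, ix_false]
  have e1 : 2 * (2 * ix v) = 4 * ix v := by ring
  have e3 : 2 * (2 * ix v + 1) = 4 * ix v + 2 := by ring
  rw [e1, e3]

/-- one level of the gain -/
theorem level_term {n j : ℕ} (hj : j + 2 ≤ n) (A : ℕ → ℂ) (b : ℕ → ℂ) :
    (∑ i ∈ range (2 ^ n), A i * sg n j i * b (anc n j i)) / 2 ^ n
      = (∑ a ∈ range (2 ^ j), (∑ i ∈ nd n j a, A i * sg n j i) / 2 ^ (n - j) * b a) / 2 ^ j := by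
  rw [sum_leaves (by omega : j ≤ n)]
  have e : (2:ℂ) ^ n = 2 ^ (n - j) * 2 ^ j := by
    rw [← pow_add]
    congr 1
    omega
  rw [e, ← div_div, sum_div]
  congr 1
  refine sum_congr rfl fun a _ => ?_
  rw [div_mul_eq_mul_div]
  congr 1
  rw [sum_mul]
  refine sum_congr rfl fun i hi => ?_
  rw [mem_nd.1 hi]

variable {C0 D : ℝ} {n : ℕ} {ι : Type} [Fintype ι]

/-- the summand of the gain at the node `v` of the list tree -/
noncomputable def gt (d : HData C0 D n ι) (v : Node) : ℂ :=
  ∑ k, if d.js k + 3 ≤ v.length then hd (hd (AC n (d.A k))) v * hd (BN n d.p (d.ξ k)) v else 0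

/-- **BRIDGE.** -/
theorem gain_eq (d : HData C0 D n ι) : d.gain = SC (n - 1) (gt d) [] := by
  have h1 : ∀ w : Node, w.length < n - 1 + ([] : Node).length →
      gt d w = (fun w : Node => (fun j a => ∑ k, if d.js k + 3 ≤ j then
        (∑ i ∈ nd n j a, d.A k i * sg n j i) / 2 ^ (n - j) * dB n d.p (d.ξ k) j a else 0)
          w.length (ix w)) w := by
    intro w hw
    unfold gt
    refine sum_congr rfl fun k _ => ?_
    split_ifs
    · simp only [List.length_nil, add_zero] at hw
      rw [node_term' (by omega), dB_eq]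
    · rfl
  rw [SC_congr (n - 1) [] h1, SC_root (n - 1) (fun j a => ∑ k, if d.js k + 3 ≤ j then
        (∑ i ∈ nd n j a, d.A k i * sg n j i) / 2 ^ (n - j) * dB n d.p (d.ξ k) j a else 0)]
  unfold HData.gain
  have h2 : ∀ j ∈ range (n - 1), (∑ a ∈ range (2 ^ j), ∑ k, if d.js k + 3 ≤ j then
        (∑ i ∈ nd n j a, d.A k i * sg n j i) / 2 ^ (n - j) * dB n d.p (d.ξ k) j a else 0) / 2 ^ j
      = ∑ k, if d.js k + 3 ≤ j then
        (∑ i ∈ range (2 ^ n), d.A k i * sg n j i * dB n d.p (d.ξ k) j (anc n j i)) / 2 ^ n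
        else 0 := by
    intro j hj
    rw [mem_range] at hj
    rw [sum_comm, sum_div]
    refine sum_congr rfl fun k _ => ?_
    split_ifs
    · rw [level_term (by omega)]
    · simp
  rw [sum_congr rfl h2, sum_comm]
  refine sum_congr rfl fun k _ => ?_
  rw [← sum_filter]
  refine sum_congr ?_ fun _ _ => rfl
  ext j
  rw [mem_Ico, mem_filter, mem_range]
  tauto

theorem norm_gain_le (d : HData C0 D n ι) : ‖d.gain‖ ≤ S (n - 1) (fun v => ‖gt d v‖) [] := by
  rw [gain_eq]
  exact norm_SC_le _ _ _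

/-! ## the hypotheses in the list tree -/

theorem AC_ne_zero {F : ℕ → ℂ} {v : Node} (h : AC n F v ≠ 0) :
    ∃ i ∈ nd n v.length (ix v), F i ≠ 0 := by
  by_contra hc
  push Not at hc
  apply h
  unfold AC avC
  rw [sum_eq_zero hc, zero_div]

theorem AV_ne_zero {F : ℕ → ℝ} {v : Node} (h : AV n F v ≠ 0) :
    ∃ i ∈ nd n v.length (ix v), F i ≠ 0 := by
  by_contra hc
  push Not at hc
  apply h
  unfold AV av
  rw [sum_eq_zero hc, zero_div]

/-- ancestors of a leaf below `v` -/
theorem anc_drop {v : Node} (hv : v.length ≤ n) {i : ℕ} (hi : i ∈ nd n v.length (ix v)) {m : ℕ}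
    (hm : m ≤ v.length) : anc n (v.length - m) i = ix (v.drop m) := by
  rw [ix_drop v hm, ← mem_nd.1 hi]
  unfold anc
  rw [Nat.div_div_eq_div_mul, ← pow_add]
  congr 2
  omega

/-- a class lives below its start node -/
theorem class_supp (d : HData C0 D n ι) {k : ι} {v : Node} (hv : v.length ≤ n)
    (hj : d.js k ≤ v.length) (h : AV n (d.a k) v ≠ 0) :
    v.drop (v.length - d.js k) = nodeOf (d.js k) (d.ac k) := by
  obtain ⟨i, hi, hne⟩ := AV_ne_zero h
  have h1 := mem_nd.1 (d.a_supp k i hne)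
  have h2 := anc_drop hv hi (m := v.length - d.js k) (by omega)
  have e : v.length - (v.length - d.js k) = d.js k := by omega
  rw [e, h1] at h2
  refine node_ext ?_ ?_
  · rw [List.length_drop, length_nodeOf, e]
  · rw [← h2, ix_nodeOf (d.ac_lt k)]

theorem AV_a_nonneg (d : HData C0 D n ι) (k : ι) (v : Node) : 0 ≤ AV n (d.a k) v :=
  av_nonneg (d.a_nonneg k)

theorem norm_AC_A_le (d : HData C0 D n ι) (k : ι) (v : Node) :
    ‖AC n (d.A k) v‖ ≤ AV n (d.a k) v := norm_avC_le fun i _ => d.A_le k i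

theorem sum_AV_a_le (d : HData C0 D n ι) (v : Node) : ∑ k, AV n (d.a k) v ≤ 1 := by
  unfold AV
  rw [← av_sum]
  exact av_le_const fun i _ => d.a_sum i

theorem AV_p_nonneg (d : HData C0 D n ι) (v : Node) : 0 ≤ AV n d.p v := av_nonneg d.p_nonneg

theorem AV_p_root (d : HData C0 D n ι) : AV n d.p [] ≤ 1 := d.p_avg

theorem AV_p_le (d : HData C0 D n ι) (v : Node) : AV n d.p v ≤ Real.exp D :=
  av_le_const fun i _ => d.p_le i

/-- mass of a class at its start node -/
theorem class_mass (d : HData C0 D n ι) (k : ι) :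
    Real.exp (-(C0 * D)) ≤ AV n (d.a k) (nodeOf (d.js k) (d.ac k)) := by
  unfold AV
  rw [length_nodeOf, ix_nodeOf (d.ac_lt k)]
  exact d.a_mass k

/-- if a class has weight in a node, all the ancestors of the node are alive -/
theorem alive_node (d : HData C0 D n ι) {k : ι} {v : Node} (hv : v.length ≤ n)
    (h : AC n (d.A k) v ≠ 0) {m : ℕ} (hm : m ≤ v.length) :
    AV n d.p (v.drop m) ≤ Real.log D ^ 2 := by
  obtain ⟨i, hi, hne⟩ := AC_ne_zero h
  have h1 := d.alive k i hne (v.length - m) (by omega)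
  rw [anc_drop hv hi hm] at h1
  unfold AV
  rwa [List.length_drop]

/-! ## the gain of a piece of `p` in a subtree -/

/-- the summand of the gain at `v`, for an arbitrary piece `p'` of `p` -/
noncomputable def gtp (d : HData C0 D n ι) (p' : ℕ → ℝ) (v : Node) : ℂ :=
  ∑ k, if d.js k + 3 ≤ v.length then hd (hd (AC n (d.A k))) v * hd (BN n p' (d.ξ k)) v else 0

theorem gt_eq_gtp (d : HData C0 D n ι) : gt d = gtp d d.p := rfl

theorem gtp_sum {κ : Type*} (s : Finset κ) (d : HData C0 D n ι) (p' : κ → ℕ → ℝ) (v : Node) :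
    gtp d (fun i => ∑ c ∈ s, p' c i) v = ∑ c ∈ s, gtp d (p' c) v := by
  unfold gtp
  rw [sum_comm]
  refine sum_congr rfl fun k _ => ?_
  split_ifs
  · rw [← mul_sum, ← hd_sum]
    congr 1
    unfold hd
    rw [BN_sum, BN_sum]
  · simp

theorem gtp_add (d : HData C0 D n ι) (p' p'' : ℕ → ℝ) (v : Node) :
    gtp d (fun i => p' i + p'' i) v = gtp d p' v + gtp d p'' v := by
  unfold gtp
  rw [← sum_add_distrib]
  refine sum_congr rfl fun k _ => ?_
  split_ifs
  · rw [← mul_add, ← hd_add]
    congr 1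
    unfold hd
    rw [BN_add, BN_add]
  · simp

/-- the two halves of the Haar shift: pairing of `dB` at `v` with `dA` at the children of `v` -/
theorem norm_gtp_le (d : HData C0 D n ι) (p' : ℕ → ℝ) (v : Node) :
    ‖gtp d p' v‖ ≤ (‖∑ k, if d.js k + 3 ≤ v.length then
        hd (AC n (d.A k)) (true :: v) * hd (BN n p' (d.ξ k)) v else 0‖
      + ‖∑ k, if d.js k + 3 ≤ v.length then
        hd (AC n (d.A k)) (false :: v) * hd (BN n p' (d.ξ k)) v else 0‖) / 2 := by
  have h : gtp d p' v = ((∑ k, if d.js k + 3 ≤ v.length then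
        hd (AC n (d.A k)) (true :: v) * hd (BN n p' (d.ξ k)) v else 0)
      - ∑ k, if d.js k + 3 ≤ v.length then
        hd (AC n (d.A k)) (false :: v) * hd (BN n p' (d.ξ k)) v else 0) / 2 := by
    unfold gtp
    rw [← sum_sub_distrib, sum_div]
    refine sum_congr rfl fun k _ => ?_
    split_ifs
    · have e : hd (hd (AC n (d.A k))) v
          = (hd (AC n (d.A k)) (true :: v) - hd (AC n (d.A k)) (false :: v)) / 2 := rfl
      rw [e]
      ring
    · simp
  rw [h, norm_div, Complex.norm_two]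
  have := norm_sub_le (∑ k, if d.js k + 3 ≤ v.length then
        hd (AC n (d.A k)) (true :: v) * hd (BN n p' (d.ξ k)) v else 0)
      (∑ k, if d.js k + 3 ≤ v.length then
        hd (AC n (d.A k)) (false :: v) * hd (BN n p' (d.ξ k)) v else 0)
  linarith

end Vale.Agent.P091.T.H350
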