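import Vale.Agent.P091.T.H17.BDefs
import Vale.Agent.P091.T.H350.Bridge

/-!
# P091, T block, row BELL: the departure sets of a plan form an epoch (`P_EP`, helper350)
-/

set_option autoImplicit false

open Finset
open Vale.Agent.P091.Spec
open Vale.Agent.P065.Ent
open Vale.Agent.P091.T.H17

noncomputable section

namespace Vale.Agent.P091.T.H350

variable {β : Type}

/-! ## Location -/

theorem child_or {j0 j a a0 : ℕ} (hj : j0 + 1 ≤ j) (h : a / 2 ^ (j - j0) = a0) :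
    a / 2 ^ (j - (j0 + 1)) = 2 * a0 ∨ a / 2 ^ (j - (j0 + 1)) = 2 * a0 + 1 := by
  have h1 : j - j0 = (j - (j0 + 1)) + 1 := by omega
  rw [h1, pow_succ, ← Nat.div_div_eq_div_mul] at h
  omega

theorem dep_left (n : ℕ) (l r : Ep β) {j0 a0 : ℕ} (Z : Finset ℕ) {j a : ℕ} (hj : j0 + 1 ≤ j)
    (h : a / 2 ^ (j - (j0 + 1)) = 2 * a0) :
    dep n (Ep.desc l r) j0 a0 Z j a
      = dep n l (j0 + 1) (2 * a0) (Z ∩ nd n (j0 + 1) (2 * a0)) j a := by
  rw [dep, if_neg (by omega), if_pos h]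

theorem dep_right (n : ℕ) (l r : Ep β) {j0 a0 : ℕ} (Z : Finset ℕ) {j a : ℕ} (hj : j0 + 1 ≤ j)
    (h : a / 2 ^ (j - (j0 + 1)) = 2 * a0 + 1) :
    dep n (Ep.desc l r) j0 a0 Z j a
      = dep n r (j0 + 1) (2 * a0 + 1) (Z ∩ nd n (j0 + 1) (2 * a0 + 1)) j a := by
  rw [dep, if_neg (by omega), if_neg (by omega), if_pos h]

theorem dep_root (n : ℕ) (l r : Ep β) (j0 a0 : ℕ) (Z : Finset ℕ) :
    dep n (Ep.desc l r) j0 a0 Z j0 a0 = Z := by
  simp [dep]

/-! ## The arrival sets of subtrees -/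

theorem arr_left (n : ℕ) (l r : Ep β) {j0 a0 : ℕ} (Z : Finset ℕ) {j a : ℕ} (hj : j0 + 1 ≤ j)
    (h : a / 2 ^ (j - (j0 + 1)) = 2 * a0) :
    arr n j0 Z (dep n (Ep.desc l r) j0 a0 Z) j a
      = arr n (j0 + 1) (Z ∩ nd n (j0 + 1) (2 * a0))
        (dep n l (j0 + 1) (2 * a0) (Z ∩ nd n (j0 + 1) (2 * a0))) j a := by
  unfold arr
  have h1 : ¬ j ≤ j0 := by omega
  rw [if_neg h1]
  rcases Nat.eq_or_lt_of_le hj with h2 | h2
  · subst h2
    have ha : a = 2 * a0 := by simpa using h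
    subst ha
    rw [if_pos (le_refl _)]
    have e1 : j0 + 1 - 1 = j0 := by omega
    have e2 : 2 * a0 / 2 = a0 := by omega
    rw [e1, e2, dep_root]
  · rw [if_neg (by omega)]
    have h3 : a / 2 / 2 ^ (j - 1 - (j0 + 1)) = 2 * a0 := by
      rw [Nat.div_div_eq_div_mul, ← pow_succ', ← h]
      congr 2
      omega
    rw [dep_left n l r Z (by omega) h3]

theorem arr_right (n : ℕ) (l r : Ep β) {j0 a0 : ℕ} (Z : Finset ℕ) {j a : ℕ} (hj : j0 + 1 ≤ j)
    (h : a / 2 ^ (j - (j0 + 1)) = 2 * a0 + 1) :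
    arr n j0 Z (dep n (Ep.desc l r) j0 a0 Z) j a
      = arr n (j0 + 1) (Z ∩ nd n (j0 + 1) (2 * a0 + 1))
        (dep n r (j0 + 1) (2 * a0 + 1) (Z ∩ nd n (j0 + 1) (2 * a0 + 1))) j a := by
  unfold arr
  have h1 : ¬ j ≤ j0 := by omega
  rw [if_neg h1]
  rcases Nat.eq_or_lt_of_le hj with h2 | h2
  · subst h2
    have ha : a = 2 * a0 + 1 := by simpa using h
    subst ha
    rw [if_pos (le_refl _)]
    have e1 : j0 + 1 - 1 = j0 := by omega
    have e2 : (2 * a0 + 1) / 2 = a0 := by omega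
    rw [e1, e2, dep_root]
  · rw [if_neg (by omega)]
    have h3 : a / 2 / 2 ^ (j - 1 - (j0 + 1)) = 2 * a0 + 1 := by
      rw [Nat.div_div_eq_div_mul, ← pow_succ', ← h]
      congr 2
      omega
    rw [dep_right n l r Z (by omega) h3]

/-! ## Densities -/

theorem av_cut_nonneg {p : ℕ → ℝ} (hp : ∀ i, 0 ≤ p i) (n j a : ℕ) (Z : Finset ℕ) :
    0 ≤ av n j a (T.cut p Z) := by
  apply av_nonneg
  intro i
  unfold T.cut
  split_ifs
  · exact hp i
  · exact le_refl _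

theorem av_cut_mono {p : ℕ → ℝ} (hp : ∀ i, 0 ≤ p i) {n j a : ℕ} {Z Z' : Finset ℕ}
    (h : Z' ⊆ Z) : av n j a (T.cut p Z') ≤ av n j a (T.cut p Z) := by
  apply av_mono
  intro i _
  unfold T.cut
  by_cases h1 : i ∈ Z'
  · rw [if_pos h1, if_pos (h h1)]
  · rw [if_neg h1]
    split_ifs
    · exact hp i
    · exact le_refl _

theorem av_cut_sdiff {p : ℕ → ℝ} {n j a : ℕ} {Z Z' : Finset ℕ} (h : Z' ⊆ Z) :
    av n j a (T.cut p Z) = av n j a (T.cut p Z') + av n j a (T.cut p (Z \ Z')) := by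
  rw [← av_add]
  apply congrArg
  funext i
  simp only [T.cut, mem_sdiff]
  by_cases h1 : i ∈ Z'
  · simp [h1, h h1]
  · simp [h1]

/-! ## One node -/

section valid
variable {C1 D : ℝ} {n b : ℕ} {ι : Type} [Fintype ι] (d : ZData C1 D n b ι)

/-- what happens at one node -/
structure At (A s0 : ℝ) (J : List (Un n b)) (B0 : ℝ) (X W : Finset ℕ) (j a : ℕ) : Prop where
  le : av n j a (T.cut d.p X) ≤ 2 * B0
  ge : s0 * B0 ≤ av n j a (T.cut d.p W)
  cut : W = X ∨ av n j a (T.cut d.p W) ≤ (1 - ((ll D : ℝ) ^ 10)⁻¹) * av n j a (T.cut d.p X)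
  rule : Rule d A J (T.cut d.p W) j a

theorem at_of_fits {A c c' s0 : ℝ} {J : List (Un n b)} {B0 : ℝ}
    (hnum : ∀ s, s ≤ sm A C1 D → ((ll D : ℝ) ^ 10)⁻¹ ≤ c' * (1 / 4 : ℝ) ^ s) :
    ∀ (t : Ep (ℕ × Un n b)) (j0 a0 : ℕ) (Z : Finset ℕ),
    Fits n (StopR d s0 B0) (DoneR d A J) (PieceR d A c c' J) t j0 a0 Z →
    ∀ j a, j0 ≤ j → j ≤ n → a / 2 ^ (j - j0) = a0 →
      dep n t j0 a0 Z j a ⊆ arr n j0 Z (dep n t j0 a0 Z) j a ∧
      ((dep n t j0 a0 Z j a).Nonempty →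
        At d A s0 J B0 (arr n j0 Z (dep n t j0 a0 Z) j a) (dep n t j0 a0 Z j a) j a) := by
  intro t
  induction t with
  | stop =>
    intro j0 a0 Z _ j a _ _ _
    refine ⟨empty_subset _, fun h => absurd h ?_⟩
    simp [dep]
  | cut ks Y' t ih =>
    intro j0 a0 Z hv j a h1 h2 h3
    obtain ⟨hst, ⟨hs1, hs2, hok, hm, hF⟩, hY, hYne, ht⟩ := hv
    have hst' : ¬ 2 * B0 < dn d j0 a0 Z := fun h => hst (Or.inr (Or.inl h))
    have hle : av n j0 a0 (T.cut d.p Z) ≤ 2 * B0 := not_lt.mp hst'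
    have IH := ih j0 a0 (Z \ Y') ht j a h1 h2 h3
    have hdep : dep n (Ep.cut ks Y' t) j0 a0 Z = dep n t j0 a0 (Z \ Y') := by
      funext j a; rfl
    rw [hdep]
    rcases Nat.eq_or_lt_of_le h1 with h4 | h4
    · -- at the root
      subst h4
      have ha : a = a0 := by simpa using h3
      subst ha
      have e1 : arr n j0 Z (dep n t j0 a (Z \ Y')) j0 a = Z := by simp [arr]
      have e2 : arr n j0 (Z \ Y') (dep n t j0 a (Z \ Y')) j0 a = Z \ Y' := by simp [arr]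
      rw [e2] at IH
      rw [e1]
      refine ⟨IH.1.trans sdiff_subset, fun hne => ?_⟩
      have I2 := IH.2 hne
      refine ⟨hle, I2.ge, Or.inr ?_, I2.rule⟩
      have hW : av n j0 a (T.cut d.p (dep n t j0 a (Z \ Y') j0 a))
          ≤ av n j0 a (T.cut d.p (Z \ Y')) := av_cut_mono d.p_nonneg IH.1
      have hs := av_cut_sdiff (p := d.p) (n := n) (j := j0) (a := a) hY
      have hn := hnum ks.1 hs2
      have hZ := av_cut_nonneg d.p_nonneg n j0 a Z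
      have h5 : ((ll D : ℝ) ^ 10)⁻¹ * av n j0 a (T.cut d.p Z)
          ≤ c' * (1 / 4 : ℝ) ^ ks.1 * av n j0 a (T.cut d.p Z) :=
        mul_le_mul_of_nonneg_right hn hZ
      have hm' : c' * (1 / 4 : ℝ) ^ ks.1 * av n j0 a (T.cut d.p Z)
          ≤ av n j0 a (T.cut d.p Y') := hm
      linarith
    · have e1 : arr n j0 Z (dep n t j0 a0 (Z \ Y')) j a
          = arr n j0 (Z \ Y') (dep n t j0 a0 (Z \ Y')) j a := by
        unfold arr
        rw [if_neg (by omega), if_neg (by omega)]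
      rw [e1]
      exact IH
  | desc l r ihl ihr =>
    intro j0 a0 Z hv j a h1 h2 h3
    obtain ⟨hst, hR, hl', hr'⟩ := hv
    have hle : av n j0 a0 (T.cut d.p Z) ≤ 2 * B0 :=
      not_lt.mp fun h => hst (Or.inr (Or.inl h))
    have hge : s0 * B0 ≤ av n j0 a0 (T.cut d.p Z) :=
      not_lt.mp fun h => hst (Or.inr (Or.inr h))
    rcases Nat.eq_or_lt_of_le h1 with h4 | h4
    · subst h4
      have ha : a = a0 := by simpa using h3
      subst ha
      rw [dep_root]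
      have e1 : arr n j0 Z (dep n (Ep.desc l r) j0 a Z) j0 a = Z := by simp [arr]
      rw [e1]
      exact ⟨subset_refl _, fun _ => ⟨hle, hge, Or.inl rfl, hR⟩⟩
    · rcases child_or h4 h3 with h5 | h5
      · rw [dep_left n l r Z h4 h5, arr_left n l r Z h4 h5]
        exact ihl (j0 + 1) (2 * a0) _ hl' j a h4 h2 h5
      · rw [dep_right n l r Z h4 h5, arr_right n l r Z h4 h5]
        exact ihr (j0 + 1) (2 * a0 + 1) _ hr' j a h4 h2 h5

/-- **the departure sets of a plan form an epoch** -/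
theorem epoch_of_plan {A c c' s0 : ℝ} {J : List (Un n b)} {j0 a0 : ℕ} {Y : Finset ℕ}
    {t : Ep (ℕ × Un n b)}
    (hnum : ∀ s, s ≤ sm A C1 D → ((ll D : ℝ) ^ 10)⁻¹ ≤ c' * (1 / 4 : ℝ) ^ s)
    (hj : j0 ≤ n) (ha : a0 < 2 ^ j0) (hY : Y ⊆ nd n j0 a0)
    (hd : Real.exp (-D) ≤ dn d j0 a0 Y) (hlen : J.length ≤ qm D)
    (hok : ∀ k ∈ J, k.Ok (ep c D) D Y) (ht : Plan d A c c' s0 J j0 a0 Y t) :
    Epoch d A c s0 J j0 a0 Y (dep n t j0 a0 Y) where
  j0_le := hj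
  a0_lt := ha
  Y_sub := hY
  dens := hd
  W_sub := fun j a h1 h2 h3 => (at_of_fits d hnum t j0 a0 Y ht j a h1 h2 h3).1
  W_le := fun j a h1 h2 h3 h4 => ((at_of_fits d hnum t j0 a0 Y ht j a h1 h2 h3).2 h4).le
  W_ge := fun j a h1 h2 h3 h4 => ((at_of_fits d hnum t j0 a0 Y ht j a h1 h2 h3).2 h4).ge
  W_cut := fun j a h1 h2 h3 h4 => ((at_of_fits d hnum t j0 a0 Y ht j a h1 h2 h3).2 h4).cut
  len := hlen
  ok := hok
  rule := fun j a h1 h2 h3 h4 => ((at_of_fits d hnum t j0 a0 Y ht j a h1 h2 h3).2 h4).rule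

end valid

/-! ## The numbers -/

/-- `ll D → ∞` -/
theorem exists_ll (M : ℝ) : ∃ D0 : ℝ, 1 < D0 ∧ ∀ D, D0 ≤ D → M ≤ ll D := by
  refine ⟨Real.exp (Real.exp (|M| + 1)), ?_, fun D hD => ?_⟩
  · have := Real.exp_pos (|M| + 1)
    exact Real.one_lt_exp_iff.mpr this
  · have h1 : Real.exp (|M| + 1) ≤ Real.log D := by
      have := Real.log_le_log (Real.exp_pos _) hD
      rwa [Real.log_exp] at this
    have h0 : 0 < Real.exp (|M| + 1) := Real.exp_pos _
    have h2 : |M| + 1 ≤ Real.log (Real.log D) := by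
      have := Real.log_le_log h0 h1
      rwa [Real.log_exp] at this
    have h3 : Real.log (Real.log D) ≤ 2 * Real.logb 2 (Real.log D) := by
      unfold Real.logb
      have l2 : Real.log 2 < 1 := by
        have := Real.log_two_lt_d9
        linarith
      have l20 : 0 < Real.log 2 := Real.log_pos (by norm_num)
      have hpos : 0 ≤ Real.log (Real.log D) := by linarith [abs_nonneg M]
      rw [mul_div_assoc', le_div_iff₀ l20]
      nlinarith
    have h4 : 2 * Real.logb 2 (Real.log D) ≤ ll D := by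
      have h := Nat.le_ceil (2 * Real.logb 2 (Real.log D))
      unfold ll
      push_cast
      linarith
    have := le_abs_self M
    linarith

theorem num_of {A C1 c' : ℝ} (hA : 1 ≤ A) (hC1 : 0 ≤ C1) (hc' : 0 < c') :
    ∃ D0 : ℝ, ∀ D, D0 ≤ D → ∀ s, s ≤ sm A C1 D → ((ll D : ℝ) ^ 10)⁻¹ ≤ c' * (1 / 4 : ℝ) ^ s := by
  set R : ℝ := 16 * (C1 + 1) ^ 8 / c' with hR
  obtain ⟨D0, _, h0⟩ := exists_ll (max 1 R)
  refine ⟨D0, fun D hD s hs => ?_⟩
  have hl1 : 1 ≤ (ll D : ℝ) := (le_max_left _ _).trans (h0 D hD)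
  have hlR : R ≤ (ll D : ℝ) := (le_max_right _ _).trans (h0 D hD)
  have hl0 : 0 < (ll D : ℝ) := by linarith
  have hA0 : 0 < A := by linarith
  set q : ℝ := (C1 + 1) * ll D / A with hq
  have hq0 : 0 < q := by positivity
  have hqle : q ≤ (C1 + 1) * ll D := by
    rw [hq, div_le_iff₀ hA0]
    have : 0 ≤ (C1 + 1) * (ll D : ℝ) := by positivity
    nlinarith
  -- 4 ^ s ≤ 16 * (max 1 q) ^ 8
  have hs' : (4 : ℝ) ^ s ≤ 16 * (max 1 q) ^ 8 := by
    have h1 : (s : ℝ) ≤ 4 * Real.logb 2 (max 1 q) + 2 := by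
      have hs2 : (s : ℝ) ≤ (⌈4 * Real.logb 2 q⌉₊ : ℝ) + 1 := by
        have : s ≤ ⌈4 * Real.logb 2 q⌉₊ + 1 := hs
        exact_mod_cast this
      have hmono : Real.logb 2 q ≤ Real.logb 2 (max 1 q) :=
        Real.logb_le_logb_of_le (by norm_num) hq0 (le_max_right _ _)
      have hnn : 0 ≤ 4 * Real.logb 2 (max 1 q) := by
        have := Real.logb_nonneg (b := 2) (x := max 1 q) (by norm_num) (le_max_left _ _)
        linarith
      have hceil : (⌈4 * Real.logb 2 q⌉₊ : ℝ) ≤ 4 * Real.logb 2 (max 1 q) + 1 := by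
        have h2 : (⌈4 * Real.logb 2 q⌉₊ : ℝ) ≤ ⌈4 * Real.logb 2 (max 1 q)⌉₊ := by
          have := Nat.ceil_mono (show 4 * Real.logb 2 q ≤ 4 * Real.logb 2 (max 1 q) by linarith)
          exact_mod_cast this
        have h3 := Nat.ceil_lt_add_one hnn
        linarith
      linarith
    have h4 : (4 : ℝ) ^ s = (2 : ℝ) ^ (2 * (s : ℝ)) := by
      rw [Real.rpow_mul (by norm_num), Real.rpow_natCast]
      norm_num
    rw [h4]
    have hm0 : 0 < max 1 q := lt_of_lt_of_le one_pos (le_max_left _ _)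
    have h5 : 16 * (max 1 q) ^ 8 = (2 : ℝ) ^ (2 * (4 * Real.logb 2 (max 1 q) + 2)) := by
      have e1 : 2 * (4 * Real.logb 2 (max 1 q) + 2) = Real.logb 2 (max 1 q) * 8 + 4 := by ring
      rw [e1, Real.rpow_add (by norm_num), Real.rpow_mul (by norm_num),
        Real.rpow_logb (by norm_num) (by norm_num) hm0]
      have e2 : (max 1 q) ^ (8 : ℝ) = (max 1 q) ^ 8 := by
        rw [← Real.rpow_natCast]; norm_num
      have e3 : (2 : ℝ) ^ (4 : ℝ) = 16 := by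
        rw [show (4 : ℝ) = ((4 : ℕ) : ℝ) by norm_num, Real.rpow_natCast]; norm_num
      rw [e2, e3]
      ring
    rw [h5]
    exact Real.rpow_le_rpow_of_exponent_le (by norm_num) (by linarith)
  have hmax : max 1 q ≤ (C1 + 1) * ll D := by
    apply max_le _ hqle
    nlinarith
  have hm0 : 0 < max 1 q := lt_of_lt_of_le one_pos (le_max_left _ _)
  have h6 : (4 : ℝ) ^ s ≤ 16 * ((C1 + 1) * ll D) ^ 8 := by
    refine hs'.trans ?_
    have : (max 1 q) ^ 8 ≤ ((C1 + 1) * ll D) ^ 8 := pow_le_pow_left₀ hm0.le hmax 8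
    linarith
  have h7 : 16 * ((C1 + 1) * (ll D : ℝ)) ^ 8 ≤ c' * (ll D : ℝ) ^ 10 := by
    have e1 : 16 * (C1 + 1) ^ 8 = c' * R := by
      rw [hR]; field_simp
    have e2 : 16 * ((C1 + 1) * (ll D : ℝ)) ^ 8 = c' * (R * (ll D : ℝ) ^ 8) := by
      rw [mul_pow, ← mul_assoc, e1]; ring
    rw [e2]
    apply mul_le_mul_of_nonneg_left _ hc'.le
    have e3 : R * (ll D : ℝ) ^ 8 ≤ ll D * (ll D : ℝ) ^ 8 :=
      mul_le_mul_of_nonneg_right hlR (by positivity)
    have e4 : (ll D : ℝ) * (ll D : ℝ) ^ 8 ≤ (ll D : ℝ) ^ 10 := by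
      have : (ll D : ℝ) ^ 10 = ll D * (ll D * (ll D : ℝ) ^ 8) := by ring
      rw [this]
      apply mul_le_mul_of_nonneg_left _ hl0.le
      exact le_mul_of_one_le_left (by positivity) hl1
    linarith
  have h8 : (4 : ℝ) ^ s ≤ c' * (ll D : ℝ) ^ 10 := h6.trans h7
  have h9 : (1 / 4 : ℝ) ^ s = ((4 : ℝ) ^ s)⁻¹ := by
    rw [one_div, inv_pow]
  have hp : (0 : ℝ) < 4 ^ s := by positivity
  have hl10 : (0 : ℝ) < (ll D : ℝ) ^ 10 := by positivity
  rw [h9, ← div_eq_mul_inv, inv_eq_one_div, div_le_div_iff₀ hl10 hp]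
  linarith

/-- **Row P_EP.** -/
theorem p_EP : P_EP := by
  intro c c' hc hc' s0 A C1 hs0 hA hC1
  obtain ⟨D0, h0⟩ := num_of hA hC1 hc'
  refine ⟨D0, ?_⟩
  intro D n ι _ d J j0 a0 Y E hD hj ha hY hd hlen hok hE
  exact epoch_of_plan d (h0 D hD) hj ha hY hd hlen hok hE

end Vale.Agent.P091.T.H350
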