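import Mathlib

/-! # P091, row BELL: sums over filtered lists (helper350, for helper17) -/

namespace Vale.Agent.P091.T.H350

theorem sum_filter_le {α : Type*} (L : List α) (p : α → Prop) [DecidablePred p] (f g : α → ℝ)
    (h1 : ∀ e ∈ L, p e → f e ≤ g e) (h2 : ∀ e ∈ L, ¬ p e → 0 ≤ g e) :
    ((L.filter p).map f).sum ≤ (L.map g).sum := by
  induction L with
  | nil => simp
  | cons x L ih =>
    have ih' := ih (fun e he => h1 e (List.mem_cons_of_mem _ he))
      (fun e he => h2 e (List.mem_cons_of_mem _ he))
    by_cases hx : p x
    · rw [List.filter_cons_of_pos (by simpa using hx)]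
      simp only [List.map_cons, List.sum_cons]
      have := h1 x List.mem_cons_self hx
      linarith
    · rw [List.filter_cons_of_neg (by simpa using hx)]
      simp only [List.map_cons, List.sum_cons]
      have := h2 x List.mem_cons_self hx
      linarith

theorem sum_le_filter {α : Type*} (L : List α) (p : α → Prop) [DecidablePred p] (f g : α → ℝ)
    (h1 : ∀ e ∈ L, p e → g e ≤ f e) (h2 : ∀ e ∈ L, ¬ p e → g e ≤ 0) :
    (L.map g).sum ≤ ((L.filter p).map f).sum := by
  induction L with
  | nil => simp
  | cons x L ih =>
    have ih' := ih (fun e he => h1 e (List.mem_cons_of_mem _ he))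
      (fun e he => h2 e (List.mem_cons_of_mem _ he))
    by_cases hx : p x
    · rw [List.filter_cons_of_pos (by simpa using hx)]
      simp only [List.map_cons, List.sum_cons]
      have := h1 x List.mem_cons_self hx
      linarith
    · rw [List.filter_cons_of_neg (by simpa using hx)]
      simp only [List.map_cons, List.sum_cons]
      have := h2 x List.mem_cons_self hx
      linarith

end Vale.Agent.P091.T.H350
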