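import Vale.Agent.P091.T.H350.ZT
import Vale.Agent.P091.T.H43.Glue

/-!
# P091, heart, row E1-D, route A (helper350): the gain identity

`FC = 4 * (the sum inside gain1) + error`, the error is summable along the tree.
-/

set_option autoImplicit false

open Finset Vale.Agent.P091.H413 Vale.Agent.P091.T.H587 Vale.Agent.P091.T.H350
open Vale.Agent.P091.Spec Vale.Agent.P065.Ent
open Vale.Agent.P091.T.H120 Vale.Agent.P091.T.H233
open Vale.Agent.P091.T.H316 (cw dMZ bt)
open scoped Classical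

noncomputable section

namespace Vale.Agent.P091.T.H350.LD

section
variable {C1 D : ℝ} {n b : ℕ} {ι : Type} [Fintype ι] {d : ZData C1 D n b ι} {A : ℝ}
  {J : List (Un n b)} {j0 a0 : ℕ} {s0 : ℝ} {Y : Finset ℕ} {W : ℕ → ℕ → Finset ℕ}

variable (d A J j0 a0) in
/-- all activated classes are representable -/
def AllBig (t : ℕ) : Prop :=
  ∀ κ (w : Node), w.length < n - j0 → κ ∈ (pdZ d A J j0 a0).new w t → Big d A J j0 a0 t κ w

/-- the coefficients of the true letter of a class which stays -/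
theorem sum_cD_pr {t : ℕ} (hB : AllBig d A J j0 a0 t) (κ : ι) (c : Bool) {v : Node}
    (hv : v.length < n - j0) (x : Node) :
    ∑ k : Fin (n - j0) × ZMod (2 ^ (n + b)), (if (k.1 : ℕ) ≤ v.length ∧
      Pr d A J j0 a0 t κ k (c :: v) then cD d A J j0 a0 t κ (H233.anc k.1 v) k.2 x else 0)
      = if (pdZ d A J j0 a0).mem t κ v ∧ (pdZ d A J j0 a0).mem t κ (c :: v) then
        d.A κ (ia a0 x) / 4 else 0 := by
  rw [Fintype.sum_prod_type]
  by_cases hm : (pdZ d A J j0 a0).mem t κ v ∧ (pdZ d A J j0 a0).mem t κ (c :: v)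
  · rw [if_pos hm]
    obtain ⟨ℓ, hℓ, hnew⟩ := (pdZ d A J j0 a0).exists_new hm.1
    have hw : (H233.anc ℓ v).length < n - j0 := by rw [length_anc hℓ]; omega
    rw [sum_eq_single (⟨ℓ, by omega⟩ : Fin (n - j0))]
    · have h1 : ∀ i : ZMod (2 ^ (n + b)), (if ((⟨ℓ, by omega⟩ : Fin (n - j0)) : ℕ) ≤ v.length ∧
          Pr d A J j0 a0 t κ (⟨ℓ, by omega⟩, i) (c :: v) then
          cD d A J j0 a0 t κ (H233.anc ℓ v) i x else 0)
          = cD d A J j0 a0 t κ (H233.anc ℓ v) i x := by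
        intro i
        rw [if_pos]
        refine ⟨hℓ, ?_, ?_, hm.2⟩
        · simp only [List.length_cons]; omega
        · show κ ∈ (pdZ d A J j0 a0).new (H233.anc ℓ (c :: v)) t
          rw [anc_cons c hℓ]; exact hnew
      rw [sum_congr rfl fun i _ => h1 i]
      exact sum_cD (hB κ _ hw hnew) x
    · intro ℓ' _ hne
      refine sum_eq_zero fun i _ => ?_
      rw [if_neg]
      rintro ⟨h1, h2, h3, _⟩
      have h1' : (ℓ' : ℕ) ≤ v.length := h1
      have h3' : κ ∈ (pdZ d A J j0 a0).new (H233.anc ℓ' (c :: v)) t := h3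
      rw [anc_cons c h1'] at h3'
      exact hne (Fin.ext ((pdZ d A J j0 a0).new_unique h1' hℓ h3' hnew))
    · intro h; exact absurd (mem_univ _) h
  · rw [if_neg hm]
    refine sum_eq_zero fun ℓ _ => sum_eq_zero fun i _ => ?_
    rw [if_neg]
    rintro ⟨h1, h2, h3, h4⟩
    have h1' : (ℓ : ℕ) ≤ v.length := h1
    have h3' : κ ∈ (pdZ d A J j0 a0).new (H233.anc ℓ (c :: v)) t := h3
    rw [anc_cons c h1'] at h3'
    refine hm ⟨(pdZ d A J j0 a0).mem_of_cons c h4 ?_, h4⟩
    exact (pdZ d A J j0 a0).act_anc h1' t ((pdZ d A J j0 a0).new_sub_act _ _ h3')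

variable (hJ : ∀ k ∈ J, IsProb k.P) (hJ' : ∀ k ∈ J, IsProb k.ρ) (hF : Fam d s0 j0 a0 Y W) (t : ℕ)

/-- pairing of one coefficient with the half difference -/
theorem pairD (κ : ι) {k : Fin (n - j0) × ZMod (2 ^ (n + b))} {v : Node}
    (hk : (k.1 : ℕ) ≤ v.length) (hv : v.length < n - j0)
    {l : List Bool} (hl : j0 + v.length + l.length = n) :
    ‖(∑ q : QJ J, gam d A J j0 a0 t κ (H233.anc k.1 v) k.2 q (l ++ v) *
        (ld d A J j0 a0 hJ hJ' hF t).sys.dB k q v) -
      cD d A J j0 a0 t κ (H233.anc k.1 v) k.2 (l ++ v) * DE d j0 a0 Y W κ v‖ ≤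
      er b (H233.anc k.1 v) v * (d.a κ (ia a0 (l ++ v)) *
        wD d A J j0 a0 t κ (H233.anc k.1 v) k.2) * dpY d.p n j0 a0 Y W v := by
  have hj := hF.j0_le
  have hlen : (H233.anc k.1 v).length ≤ v.length := by rw [length_anc hk]; exact hk
  have hT := pair (A := A) hJ hJ' hF t κ (w := H233.anc k.1 v) (v := v) hlen k.2
    (u0 := [true]) (u := true :: v) rfl (by simp only [List.length_cons]; omega) (l := l)
    hl
  have hFa := pair (A := A) hJ hJ' hF t κ (w := H233.anc k.1 v) (v := v) hlen k.2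
    (u0 := [false]) (u := false :: v) rfl (by simp only [List.length_cons]; omega) (l := l)
    hl
  have h9 := Lf_children hF hv
  set PT := ∑ q : QJ J, gam d A J j0 a0 t κ (H233.anc k.1 v) k.2 q (l ++ v) *
    Lc (n - j0 - (true :: v).length) (fun y => (gY d J j0 a0 Y W q v.length y : ℂ) *
        ch n b (-(k.2 * (ia a0 y : ℕ)))) (true :: v) with hPT
  set PF := ∑ q : QJ J, gam d A J j0 a0 t κ (H233.anc k.1 v) k.2 q (l ++ v) *
    Lc (n - j0 - (false :: v).length) (fun y => (gY d J j0 a0 Y W q v.length y : ℂ) *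
        ch n b (-(k.2 * (ia a0 y : ℕ)))) (false :: v) with hPF
  have h10 : ∑ q : QJ J, gam d A J j0 a0 t κ (H233.anc k.1 v) k.2 q (l ++ v) *
      (ld d A J j0 a0 hJ hJ' hF t).sys.dB k q v = (PT - PF) / 2 := by
    rw [hPT, hPF, ← sum_sub_distrib, sum_div]
    refine sum_congr rfl fun q _ => ?_
    rw [dB_eq]
    ring
  rw [h10]
  set c0 := cD d A J j0 a0 t κ (H233.anc k.1 v) k.2 (l ++ v) with hc0
  set MT := ME d j0 a0 Y W κ v.length (true :: v) with hMT
  set MF := ME d j0 a0 Y W κ v.length (false :: v) with hMF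
  have h11 : (PT - PF) / 2 - c0 * DE d j0 a0 Y W κ v =
      ((PT - c0 * MT) - (PF - c0 * MF)) / 2 := by
    unfold DE
    rw [← hMT, ← hMF]
    ring
  rw [h11, norm_div, Complex.norm_ofNat, ← h9]
  have := norm_sub_le (PT - c0 * MT) (PF - c0 * MF)
  have e3 := add_le_add hT hFa
  rw [← mul_add] at e3
  rw [← mul_div_assoc]
  gcongr
  exact this.trans e3

/-- average of the coefficient of a class -/
def XE (d : ZData C1 D n b ι) (j0 a0 : ℕ) (κ : ι) (u : Node) : ℂ :=
  avC n (j0 + u.length) (ia a0 u) (d.A κ)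

/-- the error at a node -/
def ge (d : ZData C1 D n b ι) (A : ℝ) (J : List (Un n b)) (j0 a0 : ℕ) (Y : Finset ℕ)
    (W : ℕ → ℕ → Finset ℕ) (t : ℕ) (c : Bool) (v u : Node) : ℝ :=
  ∑ k : Fin (n - j0) × ZMod (2 ^ (n + b)), if (k.1 : ℕ) ≤ v.length then
    ∑ κ, pw d A J j0 a0 t κ k (c :: v) * er b (H233.anc k.1 v) v * dpY d.p n j0 a0 Y W v *
      cw d j0 a0 κ u else 0

/-- the gain identity over one grandchild `u = c' :: c :: v` -/
theorem gain_node (hB : AllBig d A J j0 a0 t) (c c' : Bool) {v : Node}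
    (hv : v.length + 1 < n - j0) :
    ‖(∑ k : Fin (n - j0) × ZMod (2 ^ (n + b)), if (k.1 : ℕ) ≤ v.length then
        ∑ q, Lc (n - j0 - (c' :: c :: v).length)
          ((ld d A J j0 a0 hJ hJ' hF t).c k q (c :: v).length) (c' :: c :: v) *
          (ld d A J j0 a0 hJ hJ' hF t).sys.dB k q v else 0) -
      ∑ κ, (if (pdZ d A J j0 a0).mem t κ v ∧ (pdZ d A J j0 a0).mem t κ (c :: v) then
        XE d j0 a0 κ (c' :: c :: v) * DE d j0 a0 Y W κ v else 0) / 4‖
      ≤ ge d A J j0 a0 Y W t c v (c' :: c :: v) := by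
  have hj := hF.j0_le
  set L := ld d A J j0 a0 hJ hJ' hF t with hL
  set u : Node := c' :: c :: v with hu
  have hul : u.length = v.length + 2 := by rw [hu]; rfl
  set m := n - j0 - u.length with hm
  -- write everything as one average over the leaves below `u`
  have e1 : (∑ k : Fin (n - j0) × ZMod (2 ^ (n + b)), if (k.1 : ℕ) ≤ v.length then
        ∑ q, Lc m (L.c k q (c :: v).length) u * L.sys.dB k q v else 0)
      = Lc m (fun x => ∑ k : Fin (n - j0) × ZMod (2 ^ (n + b)), if (k.1 : ℕ) ≤ v.length then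
        ∑ q, L.c k q (c :: v).length x * L.sys.dB k q v else 0) u := by
    rw [Lc_sum]
    refine sum_congr rfl fun k _ => ?_
    split_ifs
    · rw [Lc_sum]
      exact sum_congr rfl fun q _ => (Lc_mul_right _ _ _ _).symm
    · have := Lc_mul_left m 0 (fun _ => (0:ℂ)) u
      simp only [zero_mul] at this
      exact this.symm
  have e2 : ∑ κ, (if (pdZ d A J j0 a0).mem t κ v ∧ (pdZ d A J j0 a0).mem t κ (c :: v) then
        XE d j0 a0 κ u * DE d j0 a0 Y W κ v else 0) / 4
      = Lc m (fun x => ∑ κ, (if (pdZ d A J j0 a0).mem t κ v ∧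
          (pdZ d A J j0 a0).mem t κ (c :: v) then d.A κ (ia a0 x) / 4 else 0) *
          DE d j0 a0 Y W κ v) u := by
    rw [Lc_sum]
    refine sum_congr rfl fun κ _ => ?_
    rw [Lc_mul_right]
    by_cases h : (pdZ d A J j0 a0).mem t κ v ∧ (pdZ d A J j0 a0).mem t κ (c :: v)
    · simp only [if_pos h]
      have e3 : Lc m (fun x => d.A κ (ia a0 x) / 4) u = XE d j0 a0 κ u / 4 := by
        have e4 : (fun x => d.A κ (ia a0 x) / 4) = fun x => d.A κ (ia a0 x) * (1 / 4) := by
          funext x; ring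
        rw [e4, Lc_mul_right, Lc_ia (n := n) (j0 := j0) (d.A κ) _ (by omega)]
        unfold XE
        ring
      rw [e3]
      ring
    · simp only [if_neg h]
      have := Lc_mul_left m 0 (fun _ => (0:ℂ)) u
      simp only [zero_mul] at this
      rw [this]
      simp
  have e5 : ge d A J j0 a0 Y W t c v u = Lf m (fun x =>
      ∑ k : Fin (n - j0) × ZMod (2 ^ (n + b)), if (k.1 : ℕ) ≤ v.length then
      ∑ κ, pw d A J j0 a0 t κ k (c :: v) * er b (H233.anc k.1 v) v * dpY d.p n j0 a0 Y W v *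
        d.a κ (ia a0 x) else 0) u := by
    unfold ge
    rw [Lf_sum]
    refine sum_congr rfl fun k _ => ?_
    split_ifs
    · rw [Lf_sum]
      refine sum_congr rfl fun κ _ => ?_
      rw [Lf_smul]
      congr 1
      exact (Lf_ia (d.a κ) _ (by omega)).symm
    · rw [Lf_const]
  rw [e1, e2, e5, ← Lc_sub]
  refine norm_Lc_le_below _ _ fun l hl => ?_
  have hx1 : l ++ u = (l ++ [c']) ++ (c :: v) := by rw [hu]; simp
  have hx2 : l ++ u = (l ++ [c', c]) ++ v := by rw [hu]; simp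
  have hlen2 : j0 + v.length + (l ++ [c', c]).length = n := by
    simp only [List.length_append, hl, List.length_cons, List.length_nil]
    omega
  -- expand the coefficients
  have e6 : ∀ k : Fin (n - j0) × ZMod (2 ^ (n + b)), (if (k.1 : ℕ) ≤ v.length then
        ∑ q, L.c k q (c :: v).length (l ++ u) * L.sys.dB k q v else 0)
      = ∑ κ, if (k.1 : ℕ) ≤ v.length ∧ Pr d A J j0 a0 t κ k (c :: v) then
        ∑ q : QJ J, gam d A J j0 a0 t κ (H233.anc k.1 v) k.2 q (l ++ u) *
          L.sys.dB k q v else 0 := by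
    intro k
    by_cases hk : (k.1 : ℕ) ≤ v.length
    · rw [if_pos hk]
      have e7 : ∀ q, L.c k q (c :: v).length (l ++ u) * L.sys.dB k q v =
          ∑ κ, if (k.1 : ℕ) ≤ v.length ∧ Pr d A J j0 a0 t κ k (c :: v) then
            gam d A J j0 a0 t κ (H233.anc k.1 v) k.2 q (l ++ u) * L.sys.dB k q v else 0 := by
        intro q
        rw [hx1, hL, c_eq hJ hJ' hF t k q (c :: v) (l ++ [c']), sum_mul]
        refine sum_congr rfl fun κ _ => ?_
        by_cases hP : Pr d A J j0 a0 t κ k (c :: v)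
        · rw [if_pos hP, if_pos ⟨hk, hP⟩, anc_cons c hk]
        · rw [if_neg hP, if_neg (fun h => hP h.2), zero_mul]
      rw [sum_congr rfl fun q _ => e7 q, sum_comm]
      refine sum_congr rfl fun κ _ => ?_
      split_ifs
      · rfl
      · simp
    · rw [if_neg hk]
      refine (sum_eq_zero fun κ _ => ?_).symm
      rw [if_neg (fun h => hk h.1)]
  rw [sum_congr rfl fun k _ => e6 k]
  -- the true letters
  have e8 : ∑ κ, (if (pdZ d A J j0 a0).mem t κ v ∧
          (pdZ d A J j0 a0).mem t κ (c :: v) then d.A κ (ia a0 (l ++ u)) / 4 else 0) *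
          DE d j0 a0 Y W κ v
      = ∑ k : Fin (n - j0) × ZMod (2 ^ (n + b)), ∑ κ, if (k.1 : ℕ) ≤ v.length ∧
          Pr d A J j0 a0 t κ k (c :: v) then
          cD d A J j0 a0 t κ (H233.anc k.1 v) k.2 (l ++ u) * DE d j0 a0 Y W κ v else 0 := by
    rw [sum_comm]
    refine sum_congr rfl fun κ _ => ?_
    rw [← sum_cD_pr hB κ c (by omega : v.length < n - j0) (l ++ u), sum_mul]
    refine sum_congr rfl fun k _ => ?_
    split_ifs
    · rfl
    · rw [zero_mul]
  rw [e8, ← sum_sub_distrib]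
  refine norm_sum_le_of_le _ fun k _ => ?_
  rw [← sum_sub_distrib]
  by_cases hk : (k.1 : ℕ) ≤ v.length
  · rw [if_pos hk]
    refine norm_sum_le_of_le _ fun κ _ => ?_
    by_cases hP : Pr d A J j0 a0 t κ k (c :: v)
    · rw [if_pos ⟨hk, hP⟩, if_pos ⟨hk, hP⟩]
      unfold pw
      rw [if_pos hP, anc_cons c hk]
      have h5 := pairD (A := A) hJ hJ' hF t κ (k := k) hk (by omega : v.length < n - j0) hlen2
      rw [← hx2] at h5
      refine h5.trans (le_of_eq ?_)
      ring
    · rw [if_neg (fun h => hP h.2), if_neg (fun h => hP h.2)]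
      unfold pw
      rw [if_neg hP]
      simp
  · rw [if_neg hk, norm_le_zero_iff]
    refine sum_eq_zero fun κ _ => ?_
    rw [if_neg (fun h => hk h.1), if_neg (fun h => hk h.1), sub_zero]

/-! ## the error is summable -/

include hF in
/-- geometric sum along the path, at a leaf -/
theorem geo_leaf {r : ℝ} (hr0 : 0 ≤ r) (hr : r ≤ 1 / 2) (a f : ℝ) (ℓ : ℕ) (g : ℕ → ℝ)
    (hf : 0 ≤ f) (hg0 : ∀ j, j < ℓ → g j = 0) (hg : ∀ j, g j ≤ f) (N : ℕ) :
    ∑ j ∈ range N, g j * r ^ (j - ℓ) ≤ 2 * f := by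
  have key : ∀ N : ℕ, ∑ j ∈ range N, g j * r ^ (j - ℓ) ≤ f * (2 - 2 * (if N ≤ ℓ then 1 else
      (1 / 2 : ℝ) ^ (N - ℓ))) := by
    intro N
    induction N with
    | zero => simp
    | succ N ih =>
      rw [sum_range_succ]
      rcases Nat.lt_or_ge N ℓ with h | h
      · rw [if_pos h.le] at ih
        rw [if_pos (by omega : N + 1 ≤ ℓ), hg0 N h, zero_mul, add_zero]
        exact ih
      · rw [if_neg (by omega : ¬ N + 1 ≤ ℓ)]
        have h1 : g N * r ^ (N - ℓ) ≤ f * (1 / 2 : ℝ) ^ (N - ℓ) := by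
          have e1 : g N * r ^ (N - ℓ) ≤ f * r ^ (N - ℓ) :=
            mul_le_mul_of_nonneg_right (hg N) (pow_nonneg hr0 _)
          have e2 : r ^ (N - ℓ) ≤ (1 / 2 : ℝ) ^ (N - ℓ) := pow_le_pow_left₀ hr0 hr _
          exact e1.trans (mul_le_mul_of_nonneg_left e2 hf)
        have e3 : N + 1 - ℓ = (N - ℓ) + 1 := by omega
        have e4 : (if N ≤ ℓ then (1:ℝ) else (1 / 2 : ℝ) ^ (N - ℓ)) = (1 / 2 : ℝ) ^ (N - ℓ) := by
          split_ifs with h2
          · have : N = ℓ := le_antisymm h2 h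
            subst this; simp
          · rfl
        rw [e4] at ih
        rw [e3, pow_succ]
        nlinarith
  refine (key N).trans ?_
  have : 0 ≤ (if N ≤ ℓ then (1:ℝ) else (1 / 2 : ℝ) ^ (N - ℓ)) := by
    split_ifs <;> positivity
  nlinarith

/-- **level sum**: geometric weights below the activation level -/
theorem geo_sum {r : ℝ} (hr0 : 0 ≤ r) (hr : r ≤ 1 / 2) :
    S (n - j0) (fun v => ∑ k : Fin (n - j0) × ZMod (2 ^ (n + b)),
      (ld d A J j0 a0 hJ hJ' hF t).sys.α k v * r ^ (v.length - k.1)) [] ≤ 2 := by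
  set L := ld d A J j0 a0 hJ hJ' hF t with hL
  set X := xwG d A J j0 a0 (wD d A J j0 a0 t) (wD_nonneg hJ t) (sum_wD_le hJ t) t false with hX
  have h1 : S (n - j0) (fun v => ∑ k, L.sys.α k v * r ^ (v.length - k.1)) []
      ≤ S (n - j0) (fun w => Lf (n - j0 - w.length)
        ((fun j x => ∑ k, L.a k j x * r ^ (j - k.1)) w.length) w) [] := by
    refine S_mono _ [] fun w _ => ?_
    rw [Lf_sum]
    refine sum_le_sum fun k _ => le_of_eq ?_
    have e : (fun x => L.a k w.length x * r ^ (w.length - (k.1 : ℕ)))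
        = fun x => r ^ (w.length - (k.1 : ℕ)) * L.a k w.length x := by
      funext x; ring
    rw [e, Lf_smul]
    show _ = r ^ (w.length - (k.1 : ℕ)) * L.sys.α k w
    ring
  refine h1.trans ?_
  rw [S_swap0 (n - j0) (fun j x => ∑ k, L.a k j x * r ^ (j - k.1))]
  refine Lf_le_of _ _ fun x hx => ?_
  have hx' : x.length = n - j0 := by simpa using hx
  rw [sum_comm]
  have h2 : ∀ k : Fin (n - j0) × ZMod (2 ^ (n + b)),
      ∑ j ∈ range (n - j0), L.a k j x * r ^ (j - (k.1 : ℕ)) ≤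
        2 * ∑ κ ∈ X.N (H233.anc k.1 x), X.m κ x * X.wt κ (H233.anc k.1 x) k.2 := by
    intro k
    refine geo_leaf hF hr0 hr 0 _ (k.1 : ℕ) (fun j => L.a k j x) ?_ (fun j hj => ?_)
      (fun j => ?_) _
    · exact sum_nonneg fun κ _ => mul_nonneg (X.m0 _ _) (X.wt0 _ _ _)
    · exact L.a_act k j x hj
    · exact X.a_le k j x
  refine (sum_le_sum fun k _ => h2 k).trans ?_
  rw [← mul_sum]
  have := X.sum_full_le x hx'
  linarith

end

end Vale.Agent.P091.T.H350.LD
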