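import Vale.Agent.P091.T.H120.Repn
import Vale.Agent.P091.T.H233.StageG
import Vale.Agent.P091.T.H587.FamY

/-!
# P091, heart, row E1-D (helper350): the leaf data of one stage of an epoch

`ld` = the `LeafData` of the stage `t` of an epoch: classes `(ℓ, i)` (`ℓ` = level of the activation
node, `i` = list element), coefficients `gam` (helper120's `gN`), weights `wN`, values `QJ J`,
`y`-side `fY * kerL`, letters `ch (-(i y))`.
-/

set_option autoImplicit false

open Finset Vale.Agent.P091.H413 Vale.Agent.P091.T.H587 Vale.Agent.P091.T.H350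
open Vale.Agent.P091.Spec Vale.Agent.P065.Ent
open Vale.Agent.P091.T.H120 Vale.Agent.P091.T.H233
open scoped Classical

noncomputable section

namespace Vale.Agent.P091.T.H350.LD

variable {C1 D : ℝ} {n b : ℕ} {ι : Type} [Fintype ι] (d : ZData C1 D n b ι) (A : ℝ)
  (J : List (Un n b)) (j0 a0 : ℕ)

/-- the class `κ` is representable at the node `w` by the stage `t` -/
def Big (t : ℕ) (κ : ι) (w : Node) : Prop :=
  1 / 4 ≤ ‖phiJ J (j0 + w.length) (EZ d J (th A D (t + 1)) (j0 + w.length) (ia a0 w) κ)‖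

/-- weights of the stage -/
def wD (t : ℕ) (κ : ι) (w : Node) (i : ZMod (2 ^ (n + b))) : ℝ :=
  wN d J (th A D (t + 1)) j0 a0 κ w i

/-- coefficients of the stage -/
def gam (t : ℕ) (κ : ι) (w : Node) (i : ZMod (2 ^ (n + b))) (q : QJ J) (x : Node) : ℂ :=
  if Big d A J j0 a0 t κ w then gN d J (th A D (t + 1)) j0 a0 κ w i q x else 0

/-- coefficient of the true letter -/
def cD (t : ℕ) (κ : ι) (w : Node) (i : ZMod (2 ^ (n + b))) (x : Node) : ℂ :=
  if Big d A J j0 a0 t κ w then cN d J (th A D (t + 1)) j0 a0 κ w i x else 0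

/-- the `y`-masses of the values -/
def gY (Y : Finset ℕ) (W : ℕ → ℕ → Finset ℕ) (q : QJ J) (j : ℕ) (y : Node) : ℝ :=
  fY d.p n j0 a0 Y W j y * kerL J q (ia a0 y : ZMod (2 ^ (n + b)))

/-- the letters -/
def eY (k : Fin (n - j0) × ZMod (2 ^ (n + b))) (y : Node) : ℂ :=
  ch n b (-(k.2 * (ia a0 y : ℕ)))

variable {d} {A} {J} {j0} {a0}

theorem wD_nonneg (hJ : ∀ k ∈ J, IsProb k.P) (t : ℕ) (κ : ι) (w : Node)
    (i : ZMod (2 ^ (n + b))) : 0 ≤ wD d A J j0 a0 t κ w i := wz_nonneg hJ _ _ _ _ _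

theorem sum_wD_le (hJ : ∀ k ∈ J, IsProb k.P) (t : ℕ) (κ : ι) (w : Node) :
    ∑ i, wD d A J j0 a0 t κ w i ≤ 1 := sum_wz_le hJ _ _ _ _

theorem norm_gam_le (hJ : ∀ k ∈ J, IsProb k.P) (t : ℕ) (κ : ι) (w : Node)
    (i : ZMod (2 ^ (n + b))) (q : QJ J) (x : Node) :
    ‖gam d A J j0 a0 t κ w i q x‖ ≤ d.a κ (ia a0 x) * wD d A J j0 a0 t κ w i := by
  unfold gam
  split_ifs with h
  · exact norm_gz_le hJ h i q _
  · rw [norm_zero]
    exact mul_nonneg (d.a_nonneg _ _) (wD_nonneg hJ t κ w i)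

theorem norm_cD_le (hJ : ∀ k ∈ J, IsProb k.P) (hJ' : ∀ k ∈ J, IsProb k.ρ) (t : ℕ) (κ : ι)
    (w : Node) (i : ZMod (2 ^ (n + b))) (x : Node) :
    ‖cD d A J j0 a0 t κ w i x‖ ≤ d.a κ (ia a0 x) * wD d A J j0 a0 t κ w i := by
  unfold cD
  split_ifs with h
  · exact norm_cz_le hJ hJ' h i _
  · rw [norm_zero]
    exact mul_nonneg (d.a_nonneg _ _) (wD_nonneg hJ t κ w i)

/-- the sum of the coefficients of the true letter -/
theorem sum_cD {t : ℕ} {κ : ι} {w : Node} (h : Big d A J j0 a0 t κ w) (x : Node) :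
    ∑ i, cD d A J j0 a0 t κ w i x = d.A κ (ia a0 x) / 4 := by
  unfold cD
  simp only [if_pos h]
  refine sum_cz ?_ _
  intro h0
  unfold Big at h
  rw [h0, norm_zero] at h
  norm_num at h

/-- geometric error of the representation below the activation node -/
def er (b : ℕ) (w v : Node) : ℝ := 4 * Real.pi / 2 ^ b / 2 ^ (v.length - w.length)

theorem er_nonneg (b : ℕ) (w v : Node) : 0 ≤ er b w v := by unfold er; positivity

/-- the representation, `x, y` leaves below `v`, `v` below `w` -/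
theorem gam_rep (hJ : ∀ k ∈ J, IsProb k.P) (hJ' : ∀ k ∈ J, IsProb k.ρ) (t : ℕ) (κ : ι)
    {w v : Node} (hwv : w.length ≤ v.length) (i : ZMod (2 ^ (n + b))) {u u' : List Bool}
    (hu : j0 + v.length + u.length = n) (hu' : j0 + v.length + u'.length = n) :
    ‖(∑ q : QJ J, gam d A J j0 a0 t κ w i q (u ++ v) *
        (kerL J q (ia a0 (u' ++ v) : ZMod (2 ^ (n + b))) : ℂ) *
        ch n b (-(i * (ia a0 (u' ++ v) : ℕ)))) -
      cD d A J j0 a0 t κ w i (u ++ v) * ch n b (-(d.r κ * (ia a0 (u' ++ v) : ℕ)))‖ ≤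
      er b w v * (d.a κ (ia a0 (u ++ v)) * wD d A J j0 a0 t κ w i) := by
  unfold gam cD
  split_ifs with h
  · exact gN_rep hJ hJ' h hwv i ⟨u, rfl, hu⟩ ⟨u', rfl, hu'⟩
  · simp only [zero_mul, sum_const_zero, sub_zero, norm_zero]
    exact mul_nonneg (er_nonneg _ _ _) (mul_nonneg (d.a_nonneg _ _) (wD_nonneg hJ t κ w i))

variable (d A J j0 a0)

/-- **the leaf data of the stage `t`** -/
def ld (hJ : ∀ k ∈ J, IsProb k.P) (hJ' : ∀ k ∈ J, IsProb k.ρ) {s0 : ℝ} {Y : Finset ℕ}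
    {W : ℕ → ℕ → Finset ℕ} (hF : Fam d s0 j0 a0 Y W) (t : ℕ) :
    LeafData (Fin (n - j0) × ZMod (2 ^ (n + b))) (QJ J) (n - j0) :=
  (xwG d A J j0 a0 (wD d A J j0 a0 t) (wD_nonneg hJ t) (sum_wD_le hJ t) t false).toLeaf
    (gam d A J j0 a0 t) (fun κ w i q x _ => norm_gam_le hJ t κ w i q x)
    (gY d J j0 a0 Y W)
    (fun q j y => mul_nonneg (fY_nonneg hF j y) (kerL_nonneg (fun k hk => (hJ' k hk).nonneg) q _))
    (fun q j y hy => mul_le_mul_of_nonneg_right (fY_anti hF j y hy)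
      (kerL_nonneg (fun k hk => (hJ' k hk).nonneg) q _))
    (eY (b := b) j0 a0) (fun _ _ => (norm_ch _).le)

end Vale.Agent.P091.T.H350.LD
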