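import Vale.Agent.P091.T.H350.LD
import Vale.Agent.P091.T.H316.Stage

/-!
# P091, heart, row E1-D (helper350): `z` and `τ` of the stage, departure form

For the leaf data `LD.ld` of a stage and `k = (ℓ, i)`:
* `alpha_eq` : `α_k(v) = ∑_κ pw κ k v * cw κ v`;
* `z_le` : `‖z_k(v)‖ ≤ ∑_κ pw κ k v * cw κ v * (‖M κ v‖ + er * dpY v)`;
* `tau_le` : `α_k ‖τ_k‖² ≤ ∑_κ pw κ k v * cw κ v * (‖dM κ v‖ + er * dpY v)²`.
-/

set_option autoImplicit false

open Finset Vale.Agent.P091.H413 Vale.Agent.P091.T.H587 Vale.Agent.P091.T.H350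
open Vale.Agent.P091.Spec Vale.Agent.P065.Ent
open Vale.Agent.P091.T.H120 Vale.Agent.P091.T.H233
open Vale.Agent.P091.T.H316 (cw dMZ bt)
open scoped Classical

noncomputable section

namespace Vale.Agent.P091.T.H350.LD

/-! ## complex averages -/

theorem Lc_congr_below (m : ℕ) {F G : Node → ℂ} (v : Node)
    (h : ∀ l : List Bool, l.length = m → F (l ++ v) = G (l ++ v)) : Lc m F v = Lc m G v := by
  induction m generalizing v with
  | zero => exact h [] rfl
  | succ m ih =>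
    simp only [Lc]
    rw [ih (true :: v) (fun l hl => by
        have := h (l ++ [true]) (by simp [hl])
        simpa using this),
      ih (false :: v) (fun l hl => by
        have := h (l ++ [false]) (by simp [hl])
        simpa using this)]

theorem norm_Lc_le_below (m : ℕ) {F : Node → ℂ} {G : Node → ℝ} (v : Node)
    (h : ∀ l : List Bool, l.length = m → ‖F (l ++ v)‖ ≤ G (l ++ v)) : ‖Lc m F v‖ ≤ Lf m G v :=
  (norm_Lc_le m F v).trans (Lf_mono_below m v h)

section
variable {C1 D : ℝ} {n b : ℕ} {ι : Type} [Fintype ι] (d : ZData C1 D n b ι) (A : ℝ)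
  (J : List (Un n b)) (j0 a0 : ℕ)

/-- the class `κ` is counted in the class `k = (ℓ, i)` at the node `v` -/
def Pr (t : ℕ) (κ : ι) (k : Fin (n - j0) × ZMod (2 ^ (n + b))) (v : Node) : Prop :=
  (k.1 : ℕ) ≤ v.length ∧ κ ∈ (pdZ d A J j0 a0).new (H233.anc k.1 v) t ∧
    (pdZ d A J j0 a0).mem t κ v

/-- the weight of `κ` in the class `k` at `v` -/
def pw (t : ℕ) (κ : ι) (k : Fin (n - j0) × ZMod (2 ^ (n + b))) (v : Node) : ℝ :=
  if Pr d A J j0 a0 t κ k v then wD d A J j0 a0 t κ (H233.anc k.1 v) k.2 else 0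

/-- average of the letter of the class `κ` over the node `u` with the density of level `j` -/
def ME (Y : Finset ℕ) (W : ℕ → ℕ → Finset ℕ) (κ : ι) (j : ℕ) (u : Node) : ℂ :=
  Lc (n - j0 - u.length) (fun y => (fY d.p n j0 a0 Y W j y : ℂ) *
    ch n b (-(d.r κ * (ia a0 y : ℕ)))) u

/-- half difference over the children of `v` -/
def DE (Y : Finset ℕ) (W : ℕ → ℕ → Finset ℕ) (κ : ι) (v : Node) : ℂ :=
  (ME d j0 a0 Y W κ v.length (true :: v) - ME d j0 a0 Y W κ v.length (false :: v)) / 2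

variable {d A J j0 a0}

theorem pw_nonneg (hJ : ∀ k ∈ J, IsProb k.P) (t : ℕ) (κ : ι)
    (k : Fin (n - j0) × ZMod (2 ^ (n + b))) (v : Node) : 0 ≤ pw d A J j0 a0 t κ k v := by
  unfold pw
  split_ifs
  · exact wD_nonneg hJ _ _ _ _
  · exact le_rfl

/-- the total weight of a class is at most one -/
theorem sum_pw_le (hJ : ∀ k ∈ J, IsProb k.P) (t : ℕ) (κ : ι) {v : Node}
    (_hv : v.length < n - j0) :
    ∑ k, pw d A J j0 a0 t κ k v ≤ 1 := by
  rw [Fintype.sum_prod_type]
  by_cases h : ∃ ℓ : Fin (n - j0), ((ℓ : ℕ) ≤ v.length ∧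
      κ ∈ (pdZ d A J j0 a0).new (H233.anc ℓ v) t ∧ (pdZ d A J j0 a0).mem t κ v)
  · obtain ⟨ℓ, hℓ⟩ := h
    rw [sum_eq_single ℓ]
    · refine (sum_le_sum fun i _ => ?_).trans
        (sum_wD_le (d := d) (A := A) (j0 := j0) (a0 := a0) hJ t κ (H233.anc ℓ v))
      unfold pw
      split_ifs
      · exact le_rfl
      · exact wD_nonneg hJ _ _ _ _
    · intro ℓ' _ hne
      refine sum_eq_zero fun i _ => ?_
      unfold pw Pr
      rw [if_neg]
      rintro ⟨h1, h2, _⟩
      exact hne (Fin.ext ((pdZ d A J j0 a0).new_unique h1 hℓ.1 h2 hℓ.2.1))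
    · intro h; exact absurd (mem_univ _) h
  · push Not at h
    refine le_trans (le_of_eq (sum_eq_zero fun ℓ _ => sum_eq_zero fun i _ => ?_)) zero_le_one
    unfold pw Pr
    rw [if_neg]
    rintro ⟨h1, h2, h3⟩
    exact h ℓ h1 h2 h3

theorem pw_ne {t : ℕ} {κ : ι} {k : Fin (n - j0) × ZMod (2 ^ (n + b))} {v : Node}
    (h : pw d A J j0 a0 t κ k v ≠ 0) : Pr d A J j0 a0 t κ k v := by
  unfold pw at h
  by_contra h'
  rw [if_neg h'] at h
  exact h rfl

variable {s0 : ℝ} {Y : Finset ℕ} {W : ℕ → ℕ → Finset ℕ}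
  (hJ : ∀ k ∈ J, IsProb k.P) (hJ' : ∀ k ∈ J, IsProb k.ρ) (hF : Fam d s0 j0 a0 Y W) (t : ℕ)

/-- leaf mass of a class below `v` -/
theorem a_eq (k : Fin (n - j0) × ZMod (2 ^ (n + b))) (v : Node) (u : List Bool) :
    (ld d A J j0 a0 hJ hJ' hF t).a k v.length (u ++ v)
      = ∑ κ, pw d A J j0 a0 t κ k v * d.a κ (ia a0 (u ++ v)) := by
  show (xwG d A J j0 a0 (wD d A J j0 a0 t) (wD_nonneg hJ t) (sum_wD_le hJ t) t false).a k
    v.length (u ++ v) = _
  unfold XW.a
  by_cases hk : (k.1 : ℕ) ≤ v.length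
  · rw [if_pos hk, anc_append u hk, ← sum_filter_add_sum_filter_not univ
      (fun κ => κ ∈ (pdZ d A J j0 a0).new (H233.anc k.1 v) t)]
    have e0 : (univ.filter fun κ => κ ∈ (pdZ d A J j0 a0).new (H233.anc k.1 v) t)
        = (pdZ d A J j0 a0).new (H233.anc k.1 v) t := by ext κ; simp
    have e2 : ∑ κ ∈ univ.filter (fun κ => ¬ κ ∈ (pdZ d A J j0 a0).new (H233.anc k.1 v) t),
        pw d A J j0 a0 t κ k v * d.a κ (ia a0 (u ++ v)) = 0 := by
      refine sum_eq_zero fun κ hκ => ?_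
      have h1 := (mem_filter.mp hκ).2
      unfold pw Pr
      rw [if_neg (fun h => h1 h.2.1), zero_mul]
    rw [e0, e2, add_zero]
    refine sum_congr rfl fun κ hκ => ?_
    have e3 : H233.anc v.length (u ++ v) = v := by
      rw [anc_append u le_rfl, anc_self]
    have e4 : (xwG d A J j0 a0 (wD d A J j0 a0 t) (wD_nonneg hJ t) (sum_wD_le hJ t) t
        false).alive κ v.length (u ++ v) ↔ (pdZ d A J j0 a0).mem t κ v := by
      show ((pdZ d A J j0 a0).mem t κ (H233.anc v.length (u ++ v)) ∧ _) ↔ _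
      rw [e3]
      exact ⟨fun h => h.1, fun h => ⟨h, fun h' => absurd h' (by decide)⟩⟩
    by_cases hm : (pdZ d A J j0 a0).mem t κ v
    · rw [if_pos (e4.mpr hm)]
      unfold pw Pr
      rw [if_pos ⟨hk, hκ, hm⟩, mul_comm]
      rfl
    · rw [if_neg (fun h => hm (e4.mp h))]
      unfold pw Pr
      rw [if_neg (fun h => hm h.2.2), zero_mul]
  · rw [if_neg hk]
    refine (sum_eq_zero fun κ _ => ?_).symm
    unfold pw Pr
    rw [if_neg (fun h => hk h.1), zero_mul]

/-- coefficient of a class below `v` -/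
theorem c_eq (k : Fin (n - j0) × ZMod (2 ^ (n + b))) (q : QJ J) (v : Node) (u : List Bool) :
    (ld d A J j0 a0 hJ hJ' hF t).c k q v.length (u ++ v)
      = ∑ κ, if Pr d A J j0 a0 t κ k v then
        gam d A J j0 a0 t κ (H233.anc k.1 v) k.2 q (u ++ v) else 0 := by
  show (xwG d A J j0 a0 (wD d A J j0 a0 t) (wD_nonneg hJ t) (sum_wD_le hJ t) t false).cf
    (gam d A J j0 a0 t) k q v.length (u ++ v) = _
  unfold XW.cf
  by_cases hk : (k.1 : ℕ) ≤ v.length
  · rw [if_pos hk, anc_append u hk, ← sum_filter_add_sum_filter_not univ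
      (fun κ => κ ∈ (pdZ d A J j0 a0).new (H233.anc k.1 v) t)]
    have e0 : (univ.filter fun κ => κ ∈ (pdZ d A J j0 a0).new (H233.anc k.1 v) t)
        = (pdZ d A J j0 a0).new (H233.anc k.1 v) t := by ext κ; simp
    have e2 : ∑ κ ∈ univ.filter (fun κ => ¬ κ ∈ (pdZ d A J j0 a0).new (H233.anc k.1 v) t),
        (if Pr d A J j0 a0 t κ k v then
        gam d A J j0 a0 t κ (H233.anc k.1 v) k.2 q (u ++ v) else 0) = 0 := by
      refine sum_eq_zero fun κ hκ => ?_
      have h1 := (mem_filter.mp hκ).2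
      rw [if_neg (fun h => h1 h.2.1)]
    rw [e0, e2, add_zero]
    refine sum_congr rfl fun κ hκ => ?_
    have e3 : H233.anc v.length (u ++ v) = v := by
      rw [anc_append u le_rfl, anc_self]
    have e4 : (xwG d A J j0 a0 (wD d A J j0 a0 t) (wD_nonneg hJ t) (sum_wD_le hJ t) t
        false).alive κ v.length (u ++ v) ↔ (pdZ d A J j0 a0).mem t κ v := by
      show ((pdZ d A J j0 a0).mem t κ (H233.anc v.length (u ++ v)) ∧ _) ↔ _
      rw [e3]
      exact ⟨fun h => h.1, fun h => ⟨h, fun h' => absurd h' (by decide)⟩⟩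
    by_cases hm : (pdZ d A J j0 a0).mem t κ v
    · rw [if_pos (e4.mpr hm), if_pos ⟨hk, hκ, hm⟩]
    · rw [if_neg (fun h => hm (e4.mp h)), if_neg (fun h => hm h.2.2)]
  · rw [if_neg hk]
    refine (sum_eq_zero fun κ _ => ?_).symm
    rw [if_neg (fun h => hk h.1)]

/-- the mass of a class -/
theorem alpha_eq (k : Fin (n - j0) × ZMod (2 ^ (n + b))) {v : Node} (hv : v.length ≤ n - j0) :
    (ld d A J j0 a0 hJ hJ' hF t).sys.α k v
      = ∑ κ, pw d A J j0 a0 t κ k v * cw d j0 a0 κ v := by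
  have hj := hF.j0_le
  show Lf (n - j0 - v.length) ((ld d A J j0 a0 hJ hJ' hF t).a k v.length) v = _
  rw [Lf_congr_below (n - j0 - v.length) (G := fun x => ∑ κ, pw d A J j0 a0 t κ k v *
      d.a κ (ia a0 x)) v (fun l _ => a_eq hJ hJ' hF t k v l), Lf_sum]
  refine sum_congr rfl fun κ _ => ?_
  rw [Lf_smul]
  congr 1
  exact Lf_ia (d.a κ) _ (by omega)

/-! ## the pairing of one class -/

include hJ hJ' hF in
/-- representation of the pairing of one class with the `y`-averages over a node `u` below `v` -/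
theorem pair (κ : ι) {w v : Node} (hwv : w.length ≤ v.length) (i : ZMod (2 ^ (n + b)))
    {u0 : List Bool} {u : Node} (hu : u = u0 ++ v) (hun : u.length ≤ n - j0)
    {l : List Bool} (hl : j0 + v.length + l.length = n) :
    ‖(∑ q : QJ J, gam d A J j0 a0 t κ w i q (l ++ v) *
        Lc (n - j0 - u.length) (fun y => (gY d J j0 a0 Y W q v.length y : ℂ) *
          ch n b (-(i * (ia a0 y : ℕ)))) u) -
      cD d A J j0 a0 t κ w i (l ++ v) * ME d j0 a0 Y W κ v.length u‖ ≤
      er b w v * (d.a κ (ia a0 (l ++ v)) * wD d A J j0 a0 t κ w i) *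
        Lf (n - j0 - u.length) (fY d.p n j0 a0 Y W v.length) u := by
  have hj := hF.j0_le
  have e1 : (∑ q : QJ J, gam d A J j0 a0 t κ w i q (l ++ v) *
        Lc (n - j0 - u.length) (fun y => (gY d J j0 a0 Y W q v.length y : ℂ) *
          ch n b (-(i * (ia a0 y : ℕ)))) u) -
      cD d A J j0 a0 t κ w i (l ++ v) * ME d j0 a0 Y W κ v.length u
      = Lc (n - j0 - u.length) (fun y => (fY d.p n j0 a0 Y W v.length y : ℂ) *
        ((∑ q : QJ J, gam d A J j0 a0 t κ w i q (l ++ v) *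
        (kerL J q (ia a0 y : ZMod (2 ^ (n + b))) : ℂ) * ch n b (-(i * (ia a0 y : ℕ)))) -
        cD d A J j0 a0 t κ w i (l ++ v) * ch n b (-(d.r κ * (ia a0 y : ℕ))))) u := by
    unfold ME
    rw [← Lc_mul_left]
    simp_rw [← Lc_mul_left]
    rw [← Lc_sum, ← Lc_sub]
    congr 1
    funext y
    unfold gY
    rw [mul_sub, mul_sum]
    congr 1
    · refine sum_congr rfl fun q _ => ?_
      push_cast
      ring
    · ring
  rw [e1, ← Lf_smul]
  refine norm_Lc_le_below _ _ fun l' hl' => ?_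
  rw [norm_mul, Complex.norm_real, Real.norm_of_nonneg (fY_nonneg hF _ _), mul_comm]
  refine mul_le_mul_of_nonneg_right ?_ (fY_nonneg hF _ _)
  have h3 : l' ++ u = (l' ++ u0) ++ v := by rw [hu, List.append_assoc]
  have h4 : j0 + v.length + (l' ++ u0).length = n := by
    have : u.length = u0.length + v.length := by rw [hu, List.length_append]
    rw [List.length_append, hl']
    omega
  have := gam_rep (d := d) (A := A) (J := J) (j0 := j0) (a0 := a0) hJ hJ' t κ hwv i hl h4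
  rw [← h3] at this
  exact this

/-- the averages of the letter are at most the mass -/
theorem norm_ME_le (hF : Fam d s0 j0 a0 Y W) (κ : ι) (j : ℕ) (u : Node) :
    ‖ME d j0 a0 Y W κ j u‖ ≤ Lf (n - j0 - u.length) (fY d.p n j0 a0 Y W j) u := by
  refine norm_Lc_le_of _ _ fun y _ => ?_
  rw [norm_mul, Complex.norm_real, Real.norm_of_nonneg (fY_nonneg hF _ _), norm_ch, mul_one]

/-- the density on departure is the mean of the densities over the children -/
theorem Lf_children (hF : Fam d s0 j0 a0 Y W) {v : Node} (hv : v.length < n - j0) :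
    (Lf (n - j0 - (true :: v).length) (fY d.p n j0 a0 Y W v.length) (true :: v) +
      Lf (n - j0 - (false :: v).length) (fY d.p n j0 a0 Y W v.length) (false :: v)) / 2
      = dpY d.p n j0 a0 Y W v := by
  rw [← Lf_fY hF hv.le]
  have e2 : n - j0 - v.length = (n - j0 - (v.length + 1)) + 1 := by omega
  rw [e2]
  simp only [Lf, List.length_cons]

/-- `z` of the stage -/
theorem z_le (k : Fin (n - j0) × ZMod (2 ^ (n + b))) {v : Node} (hv : v.length < n - j0) :
    ‖(ld d A J j0 a0 hJ hJ' hF t).sys.z k v‖ ≤ ∑ κ, pw d A J j0 a0 t κ k v * cw d j0 a0 κ v *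
      (‖ME d j0 a0 Y W κ v.length v‖ +
        er b (H233.anc k.1 v) v * dpY d.p n j0 a0 Y W v) := by
  have hj := hF.j0_le
  set L := ld d A J j0 a0 hJ hJ' hF t with hL
  have h1 : L.sys.z k v =
      Lc (n - j0 - v.length) (fun x => ∑ q, L.c k q v.length x * L.sys.B k q v) v := by
    unfold ESys.z
    rw [Lc_sum]
    exact sum_congr rfl fun q _ => (Lc_mul_right _ _ _ _).symm
  have h2 : ∑ κ, pw d A J j0 a0 t κ k v * cw d j0 a0 κ v *
      (‖ME d j0 a0 Y W κ v.length v‖ + er b (H233.anc k.1 v) v * dpY d.p n j0 a0 Y W v)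
      = Lf (n - j0 - v.length) (fun x => ∑ κ, (pw d A J j0 a0 t κ k v *
        (‖ME d j0 a0 Y W κ v.length v‖ + er b (H233.anc k.1 v) v * dpY d.p n j0 a0 Y W v)) *
          d.a κ (ia a0 x)) v := by
    rw [Lf_sum]
    refine sum_congr rfl fun κ _ => ?_
    rw [Lf_smul]
    have : Lf (n - j0 - v.length) (fun x => d.a κ (ia a0 x)) v = cw d j0 a0 κ v :=
      Lf_ia (d.a κ) _ (by omega)
    rw [this]
    ring
  rw [h1, h2]
  refine norm_Lc_le_below _ _ fun l hl => ?_
  have h3 : ∑ q, L.c k q v.length (l ++ v) * L.sys.B k q v =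
      ∑ κ, if Pr d A J j0 a0 t κ k v then
        ∑ q : QJ J, gam d A J j0 a0 t κ (H233.anc k.1 v) k.2 q (l ++ v) *
          Lc (n - j0 - v.length) (fun y => (gY d J j0 a0 Y W q v.length y : ℂ) *
          ch n b (-(k.2 * (ia a0 y : ℕ)))) v else 0 := by
    have e1 : ∀ q, L.c k q v.length (l ++ v) * L.sys.B k q v =
        ∑ κ, if Pr d A J j0 a0 t κ k v then
          gam d A J j0 a0 t κ (H233.anc k.1 v) k.2 q (l ++ v) *
          Lc (n - j0 - v.length) (fun y => (gY d J j0 a0 Y W q v.length y : ℂ) *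
          ch n b (-(k.2 * (ia a0 y : ℕ)))) v else 0 := by
      intro q
      rw [hL, c_eq hJ hJ' hF t k q v l, sum_mul]
      refine sum_congr rfl fun κ _ => ?_
      split_ifs
      · rfl
      · rw [zero_mul]
    rw [sum_congr rfl fun q _ => e1 q, sum_comm]
    refine sum_congr rfl fun κ _ => ?_
    split_ifs
    · rfl
    · simp
  rw [h3]
  refine norm_sum_le_of_le _ fun κ _ => ?_
  unfold pw
  split_ifs with hP
  · have h5 := pair (A := A) hJ hJ' hF t κ (w := H233.anc k.1 v) (v := v)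
      (by rw [length_anc hP.1]; exact hP.1) k.2 (u0 := []) (u := v) rfl hv.le (l := l) (by omega)
    rw [Lf_fY hF hv.le] at h5
    have h6 := norm_cD_le (d := d) (A := A) (j0 := j0) (a0 := a0) hJ hJ' t κ (H233.anc k.1 v)
      k.2 (l ++ v)
    have h7 := norm_le_norm_add_norm_sub'
      (∑ q : QJ J, gam d A J j0 a0 t κ (H233.anc k.1 v) k.2 q (l ++ v) *
          Lc (n - j0 - v.length) (fun y => (gY d J j0 a0 Y W q v.length y : ℂ) *
          ch n b (-(k.2 * (ia a0 y : ℕ)))) v)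
      (cD d A J j0 a0 t κ (H233.anc k.1 v) k.2 (l ++ v) * ME d j0 a0 Y W κ v.length v)
    rw [norm_mul] at h7
    have h8 := mul_le_mul_of_nonneg_right h6 (norm_nonneg (ME d j0 a0 Y W κ v.length v))
    refine (h7.trans (add_le_add h8 h5)).trans (le_of_eq ?_)
    ring
  · simp

/-- half difference of the `y`-letters of the stage -/
theorem dB_eq (k : Fin (n - j0) × ZMod (2 ^ (n + b))) (q : QJ J) (v : Node) :
    (ld d A J j0 a0 hJ hJ' hF t).sys.dB k q v =
      (Lc (n - j0 - (true :: v).length) (fun y => (gY d J j0 a0 Y W q v.length y : ℂ) *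
          ch n b (-(k.2 * (ia a0 y : ℕ)))) (true :: v) -
        Lc (n - j0 - (false :: v).length) (fun y => (gY d J j0 a0 Y W q v.length y : ℂ) *
          ch n b (-(k.2 * (ia a0 y : ℕ)))) (false :: v)) / 2 := rfl

/-- `τ` of the stage, before Jensen -/
theorem atau_le (k : Fin (n - j0) × ZMod (2 ^ (n + b))) {v : Node} (hv : v.length < n - j0) :
    ‖∑ q, (ld d A J j0 a0 hJ hJ' hF t).sys.A k q v *
      (ld d A J j0 a0 hJ hJ' hF t).sys.dB k q v‖ ≤
    ∑ κ, pw d A J j0 a0 t κ k v * cw d j0 a0 κ v *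
      (‖DE d j0 a0 Y W κ v‖ +
        er b (H233.anc k.1 v) v * dpY d.p n j0 a0 Y W v) := by
  have hj := hF.j0_le
  set L := ld d A J j0 a0 hJ hJ' hF t with hL
  have h1 : ∑ q, L.sys.A k q v * L.sys.dB k q v =
      Lc (n - j0 - v.length) (fun x => ∑ q, L.c k q v.length x * L.sys.dB k q v) v := by
    rw [Lc_sum]
    exact sum_congr rfl fun q _ => (Lc_mul_right _ _ _ _).symm
  have h2 : ∑ κ, pw d A J j0 a0 t κ k v * cw d j0 a0 κ v *
      (‖DE d j0 a0 Y W κ v‖ + er b (H233.anc k.1 v) v * dpY d.p n j0 a0 Y W v)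
      = Lf (n - j0 - v.length) (fun x => ∑ κ, (pw d A J j0 a0 t κ k v *
        (‖DE d j0 a0 Y W κ v‖ + er b (H233.anc k.1 v) v * dpY d.p n j0 a0 Y W v)) *
          d.a κ (ia a0 x)) v := by
    rw [Lf_sum]
    refine sum_congr rfl fun κ _ => ?_
    rw [Lf_smul]
    have : Lf (n - j0 - v.length) (fun x => d.a κ (ia a0 x)) v = cw d j0 a0 κ v :=
      Lf_ia (d.a κ) _ (by omega)
    rw [this]
    ring
  rw [h1, h2]
  refine norm_Lc_le_below _ _ fun l hl => ?_
  have h3 : ∑ q, L.c k q v.length (l ++ v) * L.sys.dB k q v =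
      ∑ κ, if Pr d A J j0 a0 t κ k v then
        ∑ q : QJ J, gam d A J j0 a0 t κ (H233.anc k.1 v) k.2 q (l ++ v) *
          L.sys.dB k q v else 0 := by
    have e1 : ∀ q, L.c k q v.length (l ++ v) * L.sys.dB k q v =
        ∑ κ, if Pr d A J j0 a0 t κ k v then
          gam d A J j0 a0 t κ (H233.anc k.1 v) k.2 q (l ++ v) * L.sys.dB k q v else 0 := by
      intro q
      rw [hL, c_eq hJ hJ' hF t k q v l, sum_mul]
      refine sum_congr rfl fun κ _ => ?_
      split_ifs
      · rfl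
      · rw [zero_mul]
    rw [sum_congr rfl fun q _ => e1 q, sum_comm]
    refine sum_congr rfl fun κ _ => ?_
    split_ifs
    · rfl
    · simp
  rw [h3]
  refine norm_sum_le_of_le _ fun κ _ => ?_
  unfold pw
  split_ifs with hP
  · have hlen : (H233.anc k.1 v).length ≤ v.length := by rw [length_anc hP.1]; exact hP.1
    have hT := pair (A := A) hJ hJ' hF t κ (w := H233.anc k.1 v) (v := v) hlen k.2
      (u0 := [true]) (u := true :: v) rfl (by simp only [List.length_cons]; omega) (l := l)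
      (by omega)
    have hFa := pair (A := A) hJ hJ' hF t κ (w := H233.anc k.1 v) (v := v) hlen k.2
      (u0 := [false]) (u := false :: v) rfl (by simp only [List.length_cons]; omega) (l := l)
      (by omega)
    have h6 := norm_cD_le (d := d) (A := A) (j0 := j0) (a0 := a0) hJ hJ' t κ (H233.anc k.1 v)
      k.2 (l ++ v)
    have h9 := Lf_children hF hv
    set PT := ∑ q : QJ J, gam d A J j0 a0 t κ (H233.anc k.1 v) k.2 q (l ++ v) *
      Lc (n - j0 - (true :: v).length) (fun y => (gY d J j0 a0 Y W q v.length y : ℂ) *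
          ch n b (-(k.2 * (ia a0 y : ℕ)))) (true :: v) with hPT
    set PF := ∑ q : QJ J, gam d A J j0 a0 t κ (H233.anc k.1 v) k.2 q (l ++ v) *
      Lc (n - j0 - (false :: v).length) (fun y => (gY d J j0 a0 Y W q v.length y : ℂ) *
          ch n b (-(k.2 * (ia a0 y : ℕ)))) (false :: v) with hPF
    have h10 : ∑ q : QJ J, gam d A J j0 a0 t κ (H233.anc k.1 v) k.2 q (l ++ v) *
        L.sys.dB k q v = (PT - PF) / 2 := by
      rw [hPT, hPF, ← sum_sub_distrib, sum_div]
      refine sum_congr rfl fun q _ => ?_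
      rw [hL, dB_eq]
      ring
    rw [h10]
    set c0 := cD d A J j0 a0 t κ (H233.anc k.1 v) k.2 (l ++ v) with hc0
    set MT := ME d j0 a0 Y W κ v.length (true :: v) with hMT
    set MF := ME d j0 a0 Y W κ v.length (false :: v) with hMF
    have h11 : (PT - PF) / 2 = c0 * DE d j0 a0 Y W κ v + ((PT - c0 * MT) - (PF - c0 * MF)) / 2 := by
      unfold DE
      rw [← hMT, ← hMF]
      ring
    rw [h11]
    have h12 : ‖((PT - c0 * MT) - (PF - c0 * MF)) / 2‖ ≤
        er b (H233.anc k.1 v) v * (d.a κ (ia a0 (l ++ v)) *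
          wD d A J j0 a0 t κ (H233.anc k.1 v) k.2) * dpY d.p n j0 a0 Y W v := by
      rw [norm_div, Complex.norm_ofNat, ← h9]
      have := norm_sub_le (PT - c0 * MT) (PF - c0 * MF)
      have e3 := add_le_add hT hFa
      rw [← mul_add] at e3
      rw [← mul_div_assoc]
      gcongr
      exact this.trans e3
    refine (norm_add_le _ _).trans ?_
    rw [norm_mul]
    have h8 := mul_le_mul_of_nonneg_right h6 (norm_nonneg (DE d j0 a0 Y W κ v))
    refine (add_le_add h8 h12).trans (le_of_eq ?_)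
    ring
  · simp

/-- weighted Jensen -/
theorem jensen {ι' : Type*} [Fintype ι'] (w T : ι' → ℝ) (hw : ∀ i, 0 ≤ w i)
    {a x : ℝ} (ha : a = ∑ i, w i) (hx0 : 0 ≤ x) (hx : a * x ≤ ∑ i, w i * T i) :
    a * x ^ 2 ≤ ∑ i, w i * T i ^ 2 := by
  have ha0 : 0 ≤ a := by rw [ha]; exact sum_nonneg fun i _ => hw i
  have hR : 0 ≤ ∑ i, w i * T i ^ 2 := sum_nonneg fun i _ => mul_nonneg (hw i) (sq_nonneg _)
  rcases ha0.eq_or_lt with h0 | h0
  · rw [← h0, zero_mul]; exact hR
  have hcs : (∑ i, w i * T i) ^ 2 ≤ (∑ i, w i) * ∑ i, w i * T i ^ 2 := by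
    have h1 := sum_mul_sq_le_sq_mul_sq univ (fun i => Real.sqrt (w i))
      (fun i => Real.sqrt (w i) * T i)
    have e1 : ∀ i, Real.sqrt (w i) * (Real.sqrt (w i) * T i) = w i * T i := by
      intro i; rw [← mul_assoc, Real.mul_self_sqrt (hw i)]
    have e2 : ∀ i, Real.sqrt (w i) ^ 2 = w i := fun i => Real.sq_sqrt (hw i)
    have e3 : ∀ i, (Real.sqrt (w i) * T i) ^ 2 = w i * T i ^ 2 := by
      intro i; rw [mul_pow, Real.sq_sqrt (hw i)]
    simp only [e1, e2, e3] at h1
    exact h1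
  rw [← ha] at hcs
  have h2 : (a * x) ^ 2 ≤ (∑ i, w i * T i) ^ 2 := pow_le_pow_left₀ (by positivity) hx 2
  have h3 : a * (a * x ^ 2) ≤ a * ∑ i, w i * T i ^ 2 := by
    calc a * (a * x ^ 2) = (a * x) ^ 2 := by ring
      _ ≤ _ := h2.trans hcs
  exact le_of_mul_le_mul_left h3 h0

theorem cw_nonneg (κ : ι) (v : Node) : 0 ≤ cw d j0 a0 κ v := av_nonneg (d.a_nonneg κ)

/-- **`τ` of the stage** -/
theorem tau_le (k : Fin (n - j0) × ZMod (2 ^ (n + b))) {v : Node} (hv : v.length < n - j0) :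
    (ld d A J j0 a0 hJ hJ' hF t).sys.α k v *
      ‖(ld d A J j0 a0 hJ hJ' hF t).sys.τ k v‖ ^ 2 ≤
    ∑ κ, pw d A J j0 a0 t κ k v * cw d j0 a0 κ v *
      (‖DE d j0 a0 Y W κ v‖ +
        er b (H233.anc k.1 v) v * dpY d.p n j0 a0 Y W v) ^ 2 := by
  set L := ld d A J j0 a0 hJ hJ' hF t with hL
  have hα := alpha_eq (A := A) hJ hJ' hF t k hv.le
  rw [← hL] at hα
  refine jensen (fun κ => pw d A J j0 a0 t κ k v * cw d j0 a0 κ v) _
    (fun κ => mul_nonneg (pw_nonneg hJ t κ k v) (cw_nonneg κ v))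
    hα (norm_nonneg _) ?_
  have ha0 : 0 ≤ L.sys.α k v := Lf_nonneg _ _ fun x _ => L.a_nonneg k _ x
  rcases ha0.eq_or_lt with h0 | h0
  · rw [← h0, zero_mul]
    exact sum_nonneg fun κ _ => mul_nonneg (mul_nonneg (pw_nonneg hJ t κ k v) (cw_nonneg κ v))
      (add_nonneg (norm_nonneg _) (mul_nonneg (er_nonneg _ _ _) (dpY_nonneg hF v)))
  · have h1 : (L.sys.α k v : ℂ) * L.sys.τ k v = ∑ q, L.sys.A k q v * L.sys.dB k q v := by
      unfold ESys.τ
      rw [mul_sum]
      refine sum_congr rfl fun q _ => ?_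
      have : (L.sys.α k v : ℂ) ≠ 0 := by exact_mod_cast h0.ne'
      field_simp
    have h2 : L.sys.α k v * ‖L.sys.τ k v‖ = ‖(L.sys.α k v : ℂ) * L.sys.τ k v‖ := by
      rw [norm_mul, Complex.norm_real, Real.norm_of_nonneg ha0]
    rw [h2, h1]
    exact atau_le hJ hJ' hF t k hv

/-! ## the averages in the integer model -/

/-- below the node `v` the alive density of level `|v|` is that of `W v` -/
theorem fY_below {v : Node} (hv : v.length ≤ n - j0) (l : List Bool) :
    fY d.p n j0 a0 Y W v.length (l ++ v) =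
      cut d.p (W (j0 + v.length) (ia a0 v)) (ia a0 (l ++ v)) / bt d j0 a0 Y := by
  unfold fY bt
  rw [if_pos hv, anc_append l le_rfl, anc_self]

/-- the letter average on departure -/
theorem ME_eq (hF : Fam d s0 j0 a0 Y W) (κ : ι) {v : Node} (hv : v.length ≤ n - j0) :
    ME d j0 a0 Y W κ v.length v =
      BZ n b (cut d.p (W (j0 + v.length) (ia a0 v))) (d.r κ) (j0 + v.length) (ia a0 v)
        / (bt d j0 a0 Y : ℂ) := by
  have hj := hF.j0_le
  unfold ME BZ
  rw [Lc_congr_below _ (G := fun y => (bt d j0 a0 Y : ℂ)⁻¹ * ((cut d.p (W (j0 + v.length)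
    (ia a0 v)) (ia a0 y) : ℂ) * ch n b (-(d.r κ * (ia a0 y : ℕ))))) v (fun l _ => by
      rw [fY_below hv l]
      push_cast
      ring), Lc_mul_left]
  rw [Lc_ia (n := n) (j0 := j0) (fun i => (cut d.p (W (j0 + v.length) (ia a0 v)) i : ℂ) *
    ch n b (-(d.r κ * i))) _ (by omega)]
  ring

/-- the letter average over a child, density of the parent -/
theorem ME_child (hF : Fam d s0 j0 a0 Y W) (κ : ι) (c : Bool) {v : Node}
    (hv : v.length < n - j0) :
    ME d j0 a0 Y W κ v.length (c :: v) =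
      BZ n b (cut d.p (W (j0 + v.length) (ia a0 v))) (d.r κ) (j0 + v.length + 1)
        (ia a0 (c :: v)) / (bt d j0 a0 Y : ℂ) := by
  have hj := hF.j0_le
  unfold ME BZ
  rw [Lc_congr_below _ (G := fun y => (bt d j0 a0 Y : ℂ)⁻¹ * ((cut d.p (W (j0 + v.length)
    (ia a0 v)) (ia a0 y) : ℂ) * ch n b (-(d.r κ * (ia a0 y : ℕ))))) (c :: v) (fun l _ => by
      have h1 : l ++ c :: v = (l ++ [c]) ++ v := by simp
      rw [h1, fY_below hv.le (l ++ [c])]
      push_cast
      ring), Lc_mul_left]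
  have h2 : j0 + v.length + 1 = j0 + (c :: v).length := by simp only [List.length_cons]; omega
  rw [h2, Lc_ia (n := n) (j0 := j0) (fun i => (cut d.p (W (j0 + v.length) (ia a0 v)) i : ℂ) *
    ch n b (-(d.r κ * i))) _ (by simp only [List.length_cons]; omega)]
  ring

/-- the half difference is that of `T/H316/Stage` -/
theorem DE_eq (hF : Fam d s0 j0 a0 Y W) (κ : ι) {v : Node} (hv : v.length < n - j0) :
    DE d j0 a0 Y W κ v = dMZ d j0 a0 Y W κ v := by
  unfold DE dMZ dZ
  rw [ME_child hF κ true hv, ME_child hF κ false hv, ia_true, ia_false]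
  ring

/-- an unbiased class has a small average -/
theorem norm_ME_le_of_not_bia (hF : Fam d s0 j0 a0 Y W) {κ : ι} {v : Node}
    (hv : v.length ≤ n - j0) {δ : ℝ}
    (h : ¬ Bia d (cut d.p (W (j0 + v.length) (ia a0 v))) δ (j0 + v.length) (ia a0 v) κ) :
    ‖ME d j0 a0 Y W κ v.length v‖ ≤ δ * dpY d.p n j0 a0 Y W v := by
  have hB := B_pos hF
  rw [ME_eq hF κ hv, norm_div, Complex.norm_real]
  unfold Bia at h
  push Not at h
  have hb : 0 < bt d j0 a0 Y := by unfold bt; linarith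
  rw [Real.norm_of_nonneg hb.le, div_le_iff₀ hb]
  unfold dpY
  have e : δ * (av n (j0 + v.length) (ia a0 v) (cut d.p (W (j0 + v.length) (ia a0 v))) /
      (2 * av n j0 a0 (cut d.p Y))) * bt d j0 a0 Y
      = δ * av n (j0 + v.length) (ia a0 v) (cut d.p (W (j0 + v.length) (ia a0 v))) := by
    unfold bt
    field_simp
  rw [e]
  exact h.le

end

end Vale.Agent.P091.T.H350.LD
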